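import Vale.Agent.P139.B.Def1

/-! P139 B/Fst: the first crossing time and its continuity.
Plan: the set `{X ∈ Icc 0 b | g X ≤ 0} ∪ {b}` is compact and nonempty, so it contains its infimum
(`IsCompact.sInf_mem`). Continuity at `p₀` (`tendsto_order`/`continuousWithinAt_iff`): for
`y < T p₀`, `g p₀ > 0` on the compact `Icc 0 y`, hence for `p` near `p₀`
(`IsCompact.eventually_forall_of_forall_eventually` or the tube lemma), so `y < T p` (`y < b`);
for `y > T p₀`: if `T p₀ = b` trivial, else take `X ∈ [T p₀, min y b)` with `g p₀ X < 0`, then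
`g p X < 0` for `p` near `p₀` and `T p ≤ X`. -/

noncomputable section

open MeasureTheory Filter Topology Set Complex
open scoped ComplexConjugate ContDiff

namespace Vale.Agent.P139

theorem b_fst_bdd {g : ℝ → ℝ} {b : ℝ} (hb : 0 ≤ b) :
    BddBelow ({X | X ∈ Icc 0 b ∧ g X ≤ 0} ∪ {b}) := by
  refine ⟨0, fun X hX => ?_⟩
  rcases hX with h | h
  · exact h.1.1
  · rw [h]; exact hb

theorem b_fst_le {g : ℝ → ℝ} {b X : ℝ} (hX : X ∈ Icc 0 b) (h : g X ≤ 0) : fst0 g b ≤ X :=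
  csInf_le (b_fst_bdd (hX.1.trans hX.2)) (Or.inl ⟨hX, h⟩)

theorem b_fst_mem {g : ℝ → ℝ} {b : ℝ} (hb : 0 ≤ b) (hg : Continuous g) :
    fst0 g b ∈ Icc 0 b ∧ (∀ X ∈ Ico 0 (fst0 g b), 0 < g X) ∧
      (fst0 g b < b → g (fst0 g b) ≤ 0) := by
  have hc : IsClosed ({X | X ∈ Icc 0 b ∧ g X ≤ 0} ∪ {b}) :=
    (isClosed_Icc.inter (isClosed_le hg continuous_const)).union isClosed_singleton
  have hm : fst0 g b ∈ {X | X ∈ Icc 0 b ∧ g X ≤ 0} ∪ {b} :=
    hc.csInf_mem ⟨b, Or.inr rfl⟩ (b_fst_bdd hb)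
  have h1 : fst0 g b ∈ Icc 0 b := by
    rcases hm with h | h
    · exact h.1
    · rw [h]; exact ⟨hb, le_rfl⟩
  refine ⟨h1, fun X hX => ?_, fun h => ?_⟩
  · by_contra h2
    exact absurd (b_fst_le ⟨hX.1, hX.2.le.trans h1.2⟩ (not_lt.1 h2)) (not_le.2 hX.2)
  · rcases hm with h2 | h2
    · exact h2.2
    · exact absurd h2 h.ne

theorem b_fst_ge {g : ℝ → ℝ} {b : ℝ} (hb : 0 ≤ b) (hg : Continuous g) (h0 : 0 ≤ g 0) :
    ∀ X ∈ Icc 0 (fst0 g b), 0 ≤ g X := by
  obtain ⟨h1, h2, -⟩ := b_fst_mem hb hg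
  intro X hX
  rcases eq_or_lt_of_le h1.1 with h | h
  · have : X = 0 := le_antisymm (h ▸ hX.2) hX.1
    rw [this]; exact h0
  · have h3 : Ico 0 (fst0 g b) ⊆ {X | 0 ≤ g X} := fun Y hY => (h2 Y hY).le
    have h4 := closure_minimal h3 (isClosed_le continuous_const hg)
    rw [closure_Ico h.ne] at h4
    exact h4 hX

theorem b_fst_cont {P : Type} [TopologicalSpace P] {g : P → ℝ → ℝ} {b : ℝ} {R : Set P}
    (hb : 0 ≤ b) (hg : Continuous fun y : P × ℝ => g y.1 y.2)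
    (ht : ∀ p ∈ R, fst0 (g p) b < b → ∀ y, fst0 (g p) b < y →
      ∃ X ∈ Ico (fst0 (g p) b) y, g p X < 0) :
    ContinuousOn (fun p => fst0 (g p) b) R := by
  have hg1 : ∀ p, Continuous (g p) := fun p => hg.comp (continuous_const.prodMk continuous_id)
  intro p hp
  refine ContinuousAt.continuousWithinAt (tendsto_order.2 ⟨fun y hy => ?_, fun y hy => ?_⟩)
  · obtain ⟨h1, h2, -⟩ := b_fst_mem hb (hg1 p)
    have h3 : ∀ᶠ p' in 𝓝 p, ∀ X ∈ Icc 0 y, 0 < g p' X := by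
      refine isCompact_Icc.eventually_forall_of_forall_eventually fun X hX => ?_
      exact hg.continuousAt.eventually (lt_mem_nhds (h2 X ⟨hX.1, hX.2.trans_lt hy⟩))
    refine h3.mono fun p' h4 => ?_
    obtain ⟨k1, -, k3⟩ := b_fst_mem hb (hg1 p')
    by_contra h5
    have h6 := not_lt.1 h5
    exact absurd (k3 (h6.trans_lt (hy.trans_le h1.2))) (not_le.2 (h4 _ ⟨k1.1, h6⟩))
  · obtain ⟨h1, -, -⟩ := b_fst_mem hb (hg1 p)
    rcases eq_or_lt_of_le h1.2 with h | h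
    · exact Eventually.of_forall fun p' => (b_fst_mem hb (hg1 p')).1.2.trans_lt (h ▸ hy)
    · obtain ⟨X, hX, h2⟩ := ht p hp h (min y b) (lt_min hy h)
      have h3 : ContinuousAt (fun p' => g p' X) p :=
        (hg.comp (continuous_id.prodMk continuous_const)).continuousAt
      refine (h3.eventually (gt_mem_nhds h2)).mono fun p' h4 => ?_
      exact (b_fst_le ⟨h1.1.trans hX.1, hX.2.le.trans (min_le_right _ _)⟩ h4.le).trans_lt
        (hX.2.trans_le (min_le_left _ _))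

end Vale.Agent.P139
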