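import Vale.Agent.P139.B.Esc
import Vale.Agent.P139.B.Fst

/-! P139 B/Xc: the exit time `fst0 (Pu - β/2) Xhi`: transversality, boundary values, continuity.
Plan: `b_cr_al`: `Y > 0`: else `b_left_neg` for `Pu` contradicts `Cr.ge`/`Cr.le`; `Y = 0`:
`b_al_zero`. `b_cr_trans`: if `al Y < 0` use `b_right_neg` for `Pu`; if `al Y = 0` then `Y > 0`,
`AA6' Y = Y^5 (β/2 - β - h) < 0` (`b_cr_h`), so `al < 0` on some `(Y, Y + δ)` and `Pu` is strictly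
decreasing there (`strictAntiOn_of_deriv_neg` or `exists_hasDerivAt_eq_slope`).
`b_xc_cr`: `b_fst_mem`, `b_fst_ge` (`0 < T` forces `g 0 > 0`). `b_xc_trans`: if `g 0 < 0` then
`T = 0` and `X = 0` works; else `Cr` holds. `b_xc_one`: `b_escape` with `X' = 0`.
`b_xc_half`: `(1/4)^m ≤ 1/6`. -/

noncomputable section

open MeasureTheory Filter Topology Set Complex
open scoped ComplexConjugate ContDiff

namespace Vale.Agent.P139

variable {m : ℕ} {β Y : ℝ} {q : ℝ → ℂ}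

/-- the exit time -/
def Xc (m : ℕ) (β : ℝ) (q : ℝ → ℂ) : ℝ := fst0 (fun X => Pu m q X - β / 2) Xhi

theorem b_xc_hi : (0 : ℝ) ≤ Xhi ∧ Xhi ≤ 3 := by
  unfold Xhi
  constructor <;> norm_num

theorem b_xc_g (h : Std m β q) : Continuous fun X => Pu m q X - β / 2 :=
  (b_Pu_cont h.isol).sub continuous_const

theorem b_xc_al0 (h : Cr m β q 0) : al q 0 < 0 := by
  have h1 : PK m (q 0) ≤ Pu m q 0 := min_le_left _ _
  have h2 := b_β_bd h.std.β_mem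
  rw [b_al_zero h.std.isol]
  linarith [h.le]

theorem b_xc_m (h : Std m β q) : (0 : ℝ) < 2 * m := by
  have : (500 : ℝ) ≤ m := by exact_mod_cast h.big
  linarith

theorem b_cr_al (h : Cr m β q Y) : al q Y ≤ 0 := by
  rcases h.Y_mem.1.eq_or_lt with h0 | h0
  · subst h0
    exact (b_xc_al0 h).le
  · by_contra hal
    have h1 := b_left_neg (b_Pu_deriv h.std.isol h0.le)
      (mul_pos (mul_pos (b_xc_m h.std) (not_le.1 hal)) (b_Pu_pos h.std.isol h0.le))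
    obtain ⟨X, a1, a2⟩ := (h1.and (Ioo_mem_nhdsLT h0)).exists
    linarith [h.ge X ⟨a2.1.le, a2.2.le⟩, h.le]

theorem b_cr_trans (h : Cr m β q Y) {y : ℝ} (hy : Y < y) : ∃ X ∈ Ico Y y, Pu m q X < β / 2 := by
  have hI := h.std.isol
  rcases (b_cr_al h).eq_or_lt with h1 | h1
  · have h0 : 0 < Y := by
      refine h.Y_mem.1.lt_of_ne fun e => ?_
      subst e
      exact (b_xc_al0 h).ne h1
    have h2 : PK m (q Y) ≤ Pu m q Y := min_le_left _ _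
    have h3 := b_β_bd h.std.β_mem
    have h4 := (abs_le.1 (b_cr_h h Y ⟨h0.le, le_rfl⟩).2).1
    have h5 := b_aa_le h.std.big
    have h6 := b_right_neg (b_AA_deriv hI h0) (mul_neg_of_pos_of_neg (pow_pos h0 5) (by
      rw [h1]
      linarith [h.le]))
    obtain ⟨u, hu, h7⟩ := mem_nhdsGT_iff_exists_Ioo_subset.1 h6
    obtain ⟨X, a1, a2⟩ := exists_between (lt_min hu hy)
    obtain ⟨c, hc, h8⟩ := exists_hasDerivAt_eq_slope (Pu m q)
      (fun X => 2 * m * al q X * Pu m q X) a1 (b_Pu_cont hI).continuousOn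
      fun x hx => b_Pu_deriv hI (h0.trans hx.1).le
    have hc0 : 0 < c := h0.trans hc.1
    have h9 : AA6 q c < AA6 q Y := h7 ⟨hc.1, hc.2.trans (a2.trans_le (min_le_left _ _))⟩
    rw [AA6, AA6, h1, mul_zero] at h9
    have h10 : al q c < 0 := neg_of_mul_neg_right h9 (pow_pos hc0 6).le
    have h11 := mul_neg_of_neg_of_pos (mul_neg_of_pos_of_neg (b_xc_m h.std) h10)
      (b_Pu_pos hI hc0.le)
    rw [h8, div_lt_iff₀ (sub_pos.2 a1)] at h11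
    exact ⟨X, ⟨a1.le, a2.trans_le (min_le_right _ _)⟩, by linarith [h.le]⟩
  · have h2 := b_right_neg (b_Pu_deriv hI h.Y_mem.1)
      (mul_neg_of_neg_of_pos (mul_neg_of_pos_of_neg (b_xc_m h.std) h1) (b_Pu_pos hI h.Y_mem.1))
    obtain ⟨X, a1, a2⟩ := (h2.and (Ioo_mem_nhdsGT hy)).exists
    exact ⟨X, ⟨a2.1.le, a2.2⟩, a1.trans_le h.le⟩

theorem b_xc_mem (h : Std m β q) : Xc m β q ∈ Icc 0 Xhi :=
  (b_fst_mem b_xc_hi.1 (b_xc_g h)).1

theorem b_xc_cr' (h : Std m β q) (h0 : 0 ≤ Pu m q 0 - β / 2) (h1 : Xc m β q < Xhi) :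
    Cr m β q (Xc m β q) :=
  ⟨h, ⟨(b_xc_mem h).1, h1.le.trans b_xc_hi.2⟩,
    fun X hX => sub_nonneg.1 (b_fst_ge b_xc_hi.1 (b_xc_g h) h0 X hX),
    sub_nonpos.1 ((b_fst_mem b_xc_hi.1 (b_xc_g h)).2.2 h1)⟩

theorem b_xc_cr (h : Std m β q) (h0 : 0 < Xc m β q) (h1 : Xc m β q < Xhi) :
    Cr m β q (Xc m β q) :=
  b_xc_cr' h ((b_fst_mem b_xc_hi.1 (b_xc_g h)).2.1 0 ⟨le_rfl, h0⟩).le h1

theorem b_xc_trans (h : Std m β q) (h1 : Xc m β q < Xhi) {y : ℝ} (hy : Xc m β q < y) :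
    ∃ X ∈ Ico (Xc m β q) y, Pu m q X - β / 2 < 0 := by
  rcases le_or_gt 0 (Pu m q 0 - β / 2) with h0 | h0
  · obtain ⟨X, a1, a2⟩ := b_cr_trans (b_xc_cr' h h0 h1) hy
    exact ⟨X, a1, sub_neg.2 a2⟩
  · have h2 : Xc m β q ≤ 0 := b_fst_le ⟨le_rfl, b_xc_hi.1⟩ h0.le
    exact ⟨0, ⟨h2, (b_xc_mem h).1.trans_lt hy⟩, h0⟩

theorem b_xc_one (h : Std m β q) (h0 : q 0 = 1) : Xc m β q = Xhi := by
  refine (b_xc_mem h).2.eq_of_not_lt fun h1 => ?_
  have h2 : Pu m q 0 = 1 := by simp [Pu, h0]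
  have h3 := b_β_bd h.β_mem
  have h4 := b_aa_le h.big
  have h5 : PK m (q 0) = 1 := by simp [PK, h0]
  have h6 := b_escape (X' := 0) h ⟨le_rfl, by norm_num⟩
    (fun s hs => by
      rw [hs.2.antisymm hs.1, h2]
      linarith)
    (by linarith) (by
      rw [b_al_zero h.isol, h5]
      linarith) (Xc m β q) ⟨(b_xc_mem h).1, h1.le.trans b_xc_hi.2⟩
  have h7 : Pu m q (Xc m β q) - β / 2 ≤ 0 := (b_fst_mem b_xc_hi.1 (b_xc_g h)).2.2 h1
  linarith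

theorem b_xc_half (h : Std m β q) (h0 : q 0 = (1 / 2 : ℝ)) : Xc m β q = 0 := by
  refine le_antisymm (b_fst_le ⟨le_rfl, b_xc_hi.1⟩ ?_) (b_xc_mem h).1
  have h3 := b_β_bd h.β_mem
  have h2 : Pu m q 0 = (1 / 2 * (1 / 2)) ^ m := by rw [Pu, h0, normSq_ofReal]
  have h4 : (1 / 2 * (1 / 2) : ℝ) ^ m ≤ (1 / 2 * (1 / 2)) ^ 2 :=
    pow_le_pow_of_le_one (by norm_num) (by norm_num) (le_trans (by norm_num) h.big)
  linarith

theorem b_xc_cont {R : Set (ℝ × ℝ)} {q : ℝ × ℝ → ℝ → ℂ}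
    (hq : Continuous fun y : (ℝ × ℝ) × ℝ => q y.1 y.2) (h : ∀ p ∈ R, Std m p.2 (q p)) :
    ContinuousOn (fun p : ℝ × ℝ => Xc m p.2 (q p)) R :=
  b_fst_cont (g := fun p X => Pu m (q p) X - p.2 / 2) b_xc_hi.1
    (((continuous_normSq.comp hq).pow m).sub ((continuous_snd.comp continuous_fst).div_const 2))
    fun p hp h1 _ hy => b_xc_trans (h p hp) h1 hy

end Vale.Agent.P139
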