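import Vale.Agent.P139.B.Core2
import Vale.Agent.P139.B.Xc

/-! P139 B/After: the solution on `[Y, Y + h0]`.
Plan: `b_aft_aux`: `al ≤ 0` on `[Y, T]` makes `normSq q` and `Pu` decreasing there (`b_incr`,
`b_nsq_deriv`, `b_Pu_deriv`), so `normSq ≤ 1` on `[0, T]`; `b_kin` gives `X ‖q'‖² ≤ 1/2`,
`‖q'‖ ≤ 1/2`, `|2 al normSq| ≤ 2 ‖q'‖ ‖q‖ ≤ 1` (`b_lg_sq`), so `normSq ≥ 1 - 4a - h0`.
`b_aft_al`: `b_bar` for `-al` on `[Y, Y + h0]` (`b_cr_al`; at `T` with `al T = 0`: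
`A' = T^5 (Pu - β - h) < 0` by `b_aft_aux`, `b_h_abs` with `η = 4a + h0`: `|h| ≤ 0.06`).
`b_aft_lg`: `b_kin`, `X ≥ 2`. `b_aft_en`: `A' ≤ -X^5 / 10` on `[Y, Y + h0]`, `A Y ≤ 0`, so
`A X ≤ -(X^6 - Y^6)/60 ≤ -X^5 (X - Y)/60`, `al ≤ -h0/360` on `[Y + h0/2, Y + h0]`,
`‖q'‖² ≥ al² normSq ≥ h0² / 259200`; `b_incr` with `b_En_le` on `[Y + h0/2, Y + h0]` and
`b_en_up` at `Y + h0/2` (gives `≤ β + 4a² - h0³/51840`). -/

noncomputable section

open MeasureTheory Filter Topology Set Complex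
open scoped ComplexConjugate ContDiff

namespace Vale.Agent.P139

variable {m : ℕ} {β Y T h0 : ℝ} {q : ℝ → ℂ}

theorem b_aft_aux (h : Cr m β q Y) (hY : 2 ≤ Y) (hh0 : h0 ≤ 1 / 100) (h3 : Y + h0 ≤ 3)
    (hT : T ∈ Icc Y (Y + h0)) (h1 : ∀ X ∈ Icc Y T, al q X ≤ 0) :
    (∀ X ∈ Icc 0 T, 1 - (4 * aa m + h0) ≤ normSq (q X) ∧ normSq (q X) ≤ 1) ∧
      ∀ X ∈ Icc Y T, Pu m q X ≤ β / 2 := by
  have _ := hh0
  have hi := h.std.isol
  have a0 := b_aa_pos h.std.big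
  have a1 := b_aa_le h.std.big
  obtain ⟨b0, b1⟩ := b_β_bd h.std.β_mem
  have hc : Continuous fun X => normSq (q X) := continuous_normSq.comp hi.sol.d1.continuous
  have hN := b_cr_nsq h Y ⟨h.Y_mem.1, le_rfl⟩
  have k1 : ∀ X ∈ Icc 0 T, normSq (q X) ≤ 1 := fun X hX => by
    rcases le_total X Y with e | e
    · exact (b_cr_nsq h X ⟨hX.1, e⟩).2
    · have := b_incr (g := fun _ => 0) e hc.continuousOn continuousOn_const fun s hs =>
        ⟨_, _, b_nsq_deriv hi (by linarith [hs.1]), hasDerivAt_const s 0, by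
          nlinarith [h1 s ⟨hs.1.le, hs.2.le.trans hX.2⟩, normSq_nonneg (q s)]⟩
      linarith [hN.2]
  refine ⟨fun X hX => ⟨?_, k1 X hX⟩, fun X hX => ?_⟩
  · rcases le_total X Y with e | e
    · linarith [(b_cr_nsq h X ⟨hX.1, e⟩).1, hT.1, hT.2]
    · have := b_incr (f := fun s => -s) e continuousOn_neg hc.continuousOn fun s hs =>
        ⟨_, _, hasDerivAt_neg' s, b_nsq_deriv hi (by linarith [hs.1]), by
          have s0 : 0 ≤ s := by linarith [hs.1]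
          have s1 := hs.2.le.trans hX.2
          have k2 := b_kin h.std ⟨s0, by linarith [hT.2]⟩ fun r hr => k1 r ⟨hr.1, hr.2.trans s1⟩
          have n0 := normSq_nonneg (q s)
          have k3 : ‖deriv q s‖ ^ 2 ≤ 1 / 4 := by
            nlinarith [hs.1, sq_nonneg ‖deriv q s‖, mul_nonneg (show 0 ≤ β by linarith) n0]
          rw [(b_lg_sq hi s0).1] at k3
          have k4 : (al q s * normSq (q s)) ^ 2 ≤ (1 / 2) ^ 2 := by
            nlinarith [k1 s ⟨s0, s1⟩, mul_nonneg (sq_nonneg (al q s)) n0,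
              mul_nonneg (sq_nonneg (ph q s)) n0]
          linarith [(abs_le_of_sq_le_sq' k4 (by norm_num)).1]⟩
      linarith [hN.1, hX.2, hT.2]
  · have := b_incr (g := fun _ => 0) hX.1 (b_Pu_cont hi).continuousOn continuousOn_const fun s hs =>
      ⟨_, _, b_Pu_deriv hi (by linarith [hs.1]), hasDerivAt_const s 0,
        mul_nonpos_of_nonpos_of_nonneg (mul_nonpos_of_nonneg_of_nonpos (by positivity)
          (h1 s ⟨hs.1.le, hs.2.le.trans hX.2⟩)) (b_Pu_pos hi (by linarith [hs.1])).le⟩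
    linarith [h.le]

theorem b_after_A (h : Cr m β q Y) (hY : 2 ≤ Y) (hh0 : h0 ≤ 1 / 100) (h3 : Y + h0 ≤ 3)
    (hT : T ∈ Icc Y (Y + h0)) (h1 : ∀ X ∈ Icc Y T, al q X ≤ 0) :
    ∃ d, HasDerivAt (AA6 q) d T ∧ d ≤ -(T ^ 5 / 10) := by
  have a1 := b_aa_le h.std.big
  obtain ⟨b0, b1⟩ := b_β_bd h.std.β_mem
  obtain ⟨k1, k2⟩ := b_aft_aux h hY hh0 h3 hT h1
  have T0 : 0 < T := by linarith [hT.1]
  refine ⟨_, b_AA_deriv h.std.isol T0, ?_⟩
  have k3 := (abs_le.1 (b_h_abs h.std ⟨T0.le, by linarith [hT.2]⟩ (by linarith) k1).2).1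
  have k4 : PK m (q T) ≤ β / 2 := (min_le_left _ _).trans (k2 T ⟨hT.1, le_rfl⟩)
  have k5 : PK m (q T) - β - hh q T - T * al q T ^ 2 ≤ -(1 / 10) := by
    linarith [mul_nonneg T0.le (sq_nonneg (al q T))]
  exact (mul_le_mul_of_nonneg_left k5 (by positivity)).trans_eq (by ring)

theorem b_aft_al (h : Cr m β q Y) (hY : 2 ≤ Y) (hh0 : h0 ≤ 1 / 100) (h3 : Y + h0 ≤ 3) :
    ∀ X ∈ Icc Y (Y + h0), al q X ≤ 0 := fun X hX => neg_nonneg.1 <|
  b_bar (f := fun X => -al q X) ((b_al_cont h.std.isol).mono fun s hs =>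
    h.Y_mem.1.trans hs.1).neg (neg_nonneg.2 (b_cr_al h)) (fun T hT k1 k2 => by
      obtain ⟨d, k3, k4⟩ := b_after_A h hY hh0 h3 (Ico_subset_Icc_self hT)
        fun s hs => neg_nonneg.1 (k1 s hs)
      have T0 : 0 < T := by linarith [hT.1]
      filter_upwards [b_right_neg k3 (k4.trans_lt (neg_neg_of_pos (by positivity))),
        self_mem_nhdsWithin] with s k5 hs
      rw [AA6, AA6, neg_eq_zero.1 k2, mul_zero] at k5
      exact neg_nonneg.2 (neg_of_mul_neg_right k5 (pow_pos (T0.trans hs) 6).le).le) X hX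

theorem b_aft_lg (h : Cr m β q Y) (hY : 2 ≤ Y) (hh0 : h0 ≤ 1 / 100) (h3 : Y + h0 ≤ 3) :
    ∀ X ∈ Icc Y (Y + h0), ‖deriv q X‖ ^ 2 ≤ 2 * aa m + h0 / 4 ∧
      ‖deriv q X / q X‖ ^ 2 ≤ 3 * aa m + h0 / 2 := fun X hX => by
  have a0 := b_aa_pos h.std.big
  have a1 := b_aa_le h.std.big
  obtain ⟨b0, b1⟩ := b_β_bd h.std.β_mem
  have X0 : 0 ≤ X := by linarith [hX.1]
  have p : 0 ≤ h0 := by linarith [hX.1, hX.2]
  have k1 := (b_aft_aux h hY hh0 h3 hX fun s hs =>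
    b_aft_al h hY hh0 h3 s ⟨hs.1, hs.2.trans hX.2⟩).1
  have k2 := b_kin h.std ⟨X0, by linarith [hX.2]⟩ fun s hs => (k1 s hs).2
  obtain ⟨k3, k4⟩ := k1 X ⟨X0, le_rfl⟩
  have k5 : ‖deriv q X‖ ^ 2 ≤ 2 * aa m + h0 / 4 := by
    nlinarith [hX.1, sq_nonneg ‖deriv q X‖]
  obtain ⟨e1, e2⟩ := b_lg_sq h.std.isol X0
  refine ⟨k5, ?_⟩
  rw [e1, ← e2] at k5
  nlinarith [sq_nonneg ‖deriv q X / q X‖]

theorem b_aft_en (h : Cr m β q Y) (hY : 2 ≤ Y) (hp : 0 < h0) (hh0 : h0 ≤ 1 / 100)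
    (h3 : Y + h0 ≤ 3) : En m β q (Y + h0) ≤ β + 4 * aa m ^ 2 - h0 ^ 3 / 51840 := by
  have hi := h.std.isol
  have a1 := b_aa_le h.std.big
  obtain ⟨b0, b1⟩ := b_β_bd h.std.β_mem
  have k0 := b_aft_al h hY hh0 h3
  obtain ⟨k1, k2⟩ := b_aft_aux h hY hh0 h3 ⟨by linarith, le_rfl⟩ k0
  have k3 : ∀ X ∈ Ioo (Y + h0 / 2) (Y + h0), al q X ≤ -(h0 / 360) := fun X hX => by
    have e : Y ≤ X := by linarith [hX.1]
    have X0 : 0 < X := by linarith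
    have k4 := b_incr (g := fun s => -(s ^ 6 / 60)) e ((b_AA_cont hi).mono fun s hs =>
      h.Y_mem.1.trans hs.1) (by fun_prop) fun s hs => by
        obtain ⟨d, k5, k6⟩ := b_after_A h hY hh0 h3 ⟨hs.1.le, hs.2.le.trans hX.2.le⟩
          fun r hr => k0 r ⟨hr.1, hr.2.trans (hs.2.le.trans hX.2.le)⟩
        exact ⟨_, _, k5, ((hasDerivAt_pow 6 s).div_const 60).neg, k6.trans_eq (by norm_num; ring)⟩
    have k5 : AA6 q Y ≤ 0 := mul_nonpos_of_nonneg_of_nonpos (by positivity) (b_cr_al h)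
    have k6 : Y ^ 5 * Y ≤ X ^ 5 * Y := by gcongr
    have k7 : X ^ 5 * (X * al q X) ≤ X ^ 5 * -((X - Y) / 60) := by
      simp only [AA6] at k4 k5
      linarith
    have k8 := le_of_mul_le_mul_left k7 (by positivity)
    nlinarith [k0 X ⟨e, hX.2.le⟩, hX.1, hX.2]
  have k4 := b_incr (g := fun s => (aa m ^ 2 - h0 ^ 2 / 25920) * s)
    (show Y + h0 / 2 ≤ Y + h0 by linarith) (b_En_cont hi).continuousOn (by fun_prop) fun s hs => by
      have s0 : 0 < s := by linarith [hs.1]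
      obtain ⟨d, k5, k6⟩ := b_En_le hi s0 ((k2 s ⟨by linarith [hs.1], hs.2.le⟩).trans (by linarith))
      obtain ⟨n0, n1⟩ := k1 s ⟨s0.le, hs.2.le⟩
      refine ⟨_, _, k5, hasDerivAt_const_mul _, k6.trans ?_⟩
      have k7 : (h0 / 360) ^ 2 ≤ al q s ^ 2 + ph q s ^ 2 := by
        nlinarith [k3 s hs, sq_nonneg (ph q s)]
      have k8 : (h0 / 360) ^ 2 * (1 / 2) ≤ _ :=
        mul_le_mul k7 (show 1 / 2 ≤ normSq (q s) by linarith) (by norm_num) (by positivity)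
      rw [(b_lg_sq hi s0.le).1]
      nlinarith [sq_nonneg (aa m)]
  have k5 := b_en_up h.std (T := Y + h0 / 2) ⟨by linarith, by linarith⟩ fun s hs =>
    (k1 s ⟨hs.1, by linarith [hs.2]⟩).2
  nlinarith [sq_nonneg (aa m)]

end Vale.Agent.P139
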