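import Vale.Agent.P139.B.Def1

/-! P139 B/Bar: elementary real analysis.
Plan: `b_bar`: `IsClosed.Icc_subset_of_forall_mem_nhdsWithin` applied to
`s = {T | ∀ X ∈ Icc x0 T, 0 ≤ f X}`, or `T = sSup` of that set inside `[x0, x1]`; if `f T > 0` use
continuity, if `f T = 0` the hypothesis. `b_right_pos`: `hasDerivAt_iff_tendsto_slope` /
`HasDerivAt.tendsto_slope_zero_right`. `b_last`: `X2 = sSup ({X ∈ Icc x0 x1 | f X ≤ 0} ∪ {x0})`, a
compact set. `b_incr`: `monotoneOn_of_hasDerivWithinAt_nonneg` or the mean value theorem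
`exists_hasDerivAt_eq_slope` for `f - g`. `b_pow_lo`: `(1 - 2/m)^m ≤ exp (-2) < 1/6`
(`Real.one_sub_div_pow_le_exp_neg`, `Real.exp_one_gt_d9`); `b_pow_up`: Bernoulli
`one_add_mul_le_pow`. -/

noncomputable section

open MeasureTheory Filter Topology Set Complex
open scoped ComplexConjugate ContDiff

namespace Vale.Agent.P139

theorem b_bar {f : ℝ → ℝ} {x0 x1 : ℝ} (hf : ContinuousOn f (Icc x0 x1)) (h0 : 0 ≤ f x0)
    (h : ∀ T ∈ Ico x0 x1, (∀ X ∈ Icc x0 T, 0 ≤ f X) → f T = 0 → ∀ᶠ X in 𝓝[>] T, 0 ≤ f X) :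
    ∀ X ∈ Icc x0 x1, 0 ≤ f X := by
  by_contra hc
  push Not at hc
  obtain ⟨X, hX, hfX⟩ := hc
  set B : Set ℝ := {Y | Y ∈ Icc x0 x1 ∧ f Y < 0} with hB
  have hne : B.Nonempty := ⟨X, hX, hfX⟩
  have hbd : BddBelow B := ⟨x0, fun Y hY => hY.1.1⟩
  set T := sInf B with hT
  have hT0 : x0 ≤ T := le_csInf hne fun Y hY => hY.1.1
  have hTX : T ≤ X := csInf_le hbd ⟨hX, hfX⟩
  have hTm : T ∈ Icc x0 x1 := ⟨hT0, hTX.trans hX.2⟩
  have hlt : ∀ Y ∈ Ico x0 T, 0 ≤ f Y := fun Y hY => by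
    by_contra h1
    exact absurd (csInf_le hbd ⟨⟨hY.1, hY.2.le.trans hTm.2⟩, not_le.1 h1⟩) (not_le.2 hY.2)
  have hfT : 0 ≤ f T := by
    rcases eq_or_lt_of_le hT0 with h1 | h1
    · rw [← h1]; exact h0
    · have h2 : ContinuousWithinAt f (Ico x0 T) T :=
        (hf T hTm).mono fun Y hY => ⟨hY.1, hY.2.le.trans hTm.2⟩
      have h3 : T ∈ closure (Ico x0 T) := by rw [closure_Ico h1.ne]; exact ⟨hT0, le_rfl⟩
      have := h2.mem_closure h3 (t := Ici 0) fun Y hY => hlt Y hY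
      rwa [closure_Ici] at this
  have hle : ∀ Y ∈ Icc x0 T, 0 ≤ f Y := fun Y hY => by
    rcases eq_or_lt_of_le hY.2 with h1 | h1
    · rw [h1]; exact hfT
    · exact hlt Y ⟨hY.1, h1⟩
  have hT1 : T < x1 := by
    refine lt_of_le_of_ne hTm.2 fun h1 => ?_
    exact absurd (hle X ⟨hX.1, h1 ▸ hX.2⟩) (not_le.2 hfX)
  have hev : ∀ᶠ Y in 𝓝[>] T, 0 ≤ f Y := by
    rcases eq_or_lt_of_le hfT with h1 | h1
    · exact h T ⟨hT0, hT1⟩ hle h1.symm
    · have h2 : ContinuousWithinAt f (Ioi T) T :=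
        (hf T hTm).mono_of_mem_nhdsWithin (mem_of_superset (Ioo_mem_nhdsGT hT1)
          fun Y hY => ⟨hT0.trans hY.1.le, hY.2.le⟩)
      exact (h2.eventually (lt_mem_nhds h1)).mono fun Y hY => hY.le
  obtain ⟨u, hu, hsub⟩ := (mem_nhdsGT_iff_exists_Ioo_subset).1 hev
  obtain ⟨Y, hY, hYu⟩ := exists_lt_of_csInf_lt hne (show sInf B < u from hu)
  rcases eq_or_lt_of_le (csInf_le hbd hY) with h1 | h1
  · exact absurd hfT (not_le.2 (by rw [hT, h1]; exact hY.2))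
  · exact absurd (hsub ⟨h1, hYu⟩) (not_le.2 hY.2)

theorem b_right_pos {f : ℝ → ℝ} {T d : ℝ} (hf : HasDerivAt f d T) (hd : 0 < d) :
    ∀ᶠ X in 𝓝[>] T, f T < f X := by
  have h1 := (hasDerivAt_iff_tendsto_slope.1 hf).mono_left (nhdsGT_le_nhdsNE T)
  filter_upwards [h1.eventually (lt_mem_nhds hd), self_mem_nhdsWithin] with X h2 h3
  rw [slope_def_field] at h2
  have h4 : 0 < X - T := sub_pos.2 h3
  have := (div_pos_iff_of_pos_right h4).1 h2
  linarith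

theorem b_right_neg {f : ℝ → ℝ} {T d : ℝ} (hf : HasDerivAt f d T) (hd : d < 0) :
    ∀ᶠ X in 𝓝[>] T, f X < f T :=
  (b_right_pos hf.neg (neg_pos.2 hd)).mono fun X h => by simpa using h

theorem b_left_neg {f : ℝ → ℝ} {T d : ℝ} (hf : HasDerivAt f d T) (hd : 0 < d) :
    ∀ᶠ X in 𝓝[<] T, f X < f T := by
  have h1 := (hasDerivAt_iff_tendsto_slope.1 hf).mono_left (nhdsLT_le_nhdsNE T)
  filter_upwards [h1.eventually (lt_mem_nhds hd), self_mem_nhdsWithin] with X h2 h3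
  rw [slope_def_field] at h2
  have h4 : X - T < 0 := sub_neg.2 h3
  by_contra h5
  have := div_nonpos_of_nonneg_of_nonpos (sub_nonneg.2 (not_lt.1 h5)) h4.le
  linarith

theorem b_left_pos {f : ℝ → ℝ} {T d : ℝ} (hf : HasDerivAt f d T) (hd : d < 0) :
    ∀ᶠ X in 𝓝[<] T, f T < f X :=
  (b_left_neg hf.neg (neg_pos.2 hd)).mono fun X h => by simpa using h

theorem b_last {f : ℝ → ℝ} {x0 x1 : ℝ} (h01 : x0 ≤ x1) (hf : ContinuousOn f (Icc x0 x1))
    (h1 : 0 < f x1) : ∃ x2 ∈ Icc x0 x1, (∀ X ∈ Ioc x2 x1, 0 < f X) ∧ 0 ≤ f x2 ∧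
      (x2 = x0 ∨ f x2 = 0) := by
  set B : Set ℝ := Icc x0 x1 ∩ f ⁻¹' Iic 0 with hB
  rcases B.eq_empty_or_nonempty with he | hne
  · have hp : ∀ X ∈ Icc x0 x1, 0 < f X := fun X hX => by
      by_contra h2
      have : X ∈ B := ⟨hX, not_lt.1 h2⟩
      rw [he] at this
      exact this
    exact ⟨x0, ⟨le_rfl, h01⟩, fun X hX => hp X ⟨hX.1.le, hX.2⟩, (hp x0 ⟨le_rfl, h01⟩).le,
      Or.inl rfl⟩
  · have hc : IsCompact B :=
      isCompact_Icc.of_isClosed_subset (hf.preimage_isClosed_of_isClosed isClosed_Icc isClosed_Iic)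
        inter_subset_left
    obtain ⟨x2, hx2, hmax⟩ := hc.exists_isGreatest hne
    have hp : ∀ X ∈ Ioc x2 x1, 0 < f X := fun X hX => by
      by_contra h2
      exact absurd (hmax ⟨⟨hx2.1.1.trans hX.1.le, hX.2⟩, not_lt.1 h2⟩) (not_le.2 hX.1)
    have hlt : x2 < x1 := lt_of_le_of_ne hx2.1.2 fun h2 => absurd hx2.2 (by
      rw [h2]; exact not_le.2 h1)
    have h2 : ContinuousWithinAt f (Ioc x2 x1) x2 :=
      (hf x2 hx2.1).mono fun Y hY => ⟨hx2.1.1.trans hY.1.le, hY.2⟩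
    have h3 : x2 ∈ closure (Ioc x2 x1) := by rw [closure_Ioc hlt.ne]; exact ⟨le_rfl, hlt.le⟩
    have h4 := h2.mem_closure h3 (t := Ici 0) fun Y hY => (hp Y hY).le
    rw [closure_Ici] at h4
    exact ⟨x2, hx2.1, hp, h4, Or.inr (le_antisymm hx2.2 h4)⟩

/-- comparison of increments -/
theorem b_incr {f g : ℝ → ℝ} {x0 x1 : ℝ} (h01 : x0 ≤ x1) (hf : ContinuousOn f (Icc x0 x1))
    (hg : ContinuousOn g (Icc x0 x1))
    (h : ∀ X ∈ Ioo x0 x1, ∃ d e, HasDerivAt f d X ∧ HasDerivAt g e X ∧ d ≤ e) :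
    f x1 - f x0 ≤ g x1 - g x0 := by
  rcases eq_or_lt_of_le h01 with h1 | h1
  · rw [h1]; simp
  choose! d e hd he hde using h
  obtain ⟨c, hc, h2⟩ := exists_hasDerivAt_eq_slope (fun X => g X - f X) (fun X => e X - d X) h1
    (hg.sub hf) fun X hX => (he X hX).sub (hd X hX)
  have h3 : 0 ≤ (g x1 - f x1 - (g x0 - f x0)) / (x1 - x0) := by
    rw [← h2]; exact sub_nonneg.2 (hde c hc)
  have := (div_nonneg_iff.1 h3).resolve_right fun h4 => absurd h4.2 (by linarith)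
  linarith [this.1]

theorem b_pow_lo {m : ℕ} (hm : 500 ≤ m) {s : ℝ} (hs : 0 ≤ s) (h : 1 / 6 ≤ s ^ m) :
    1 - 4 * aa m ≤ s := by
  have hm' : (500 : ℝ) ≤ m := by exact_mod_cast hm
  by_contra hc
  have h1 : s ≤ 1 - 2 / m := by
    have : 4 * aa m = 2 / m := by unfold aa; field_simp; norm_num
    linarith [not_le.1 hc]
  have h2 : s ^ m ≤ (1 - 2 / m) ^ m := pow_le_pow_left₀ hs h1 m
  have h3 : (1 - 2 / (m : ℝ)) ^ m ≤ Real.exp (-2) := Real.one_sub_div_pow_le_exp_neg (by linarith)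
  have h4 : Real.exp (-2) < 1 / 6 := by
    have e1 := Real.exp_one_gt_d9
    have e2 : Real.exp 2 = Real.exp 1 * Real.exp 1 := by rw [← Real.exp_add]; norm_num
    rw [Real.exp_neg, one_div]
    exact inv_strictAnti₀ (by norm_num) (by rw [e2]; nlinarith)
  linarith

theorem b_pow_up {m : ℕ} (hm : 500 ≤ m) {s : ℝ} (hs : 0 ≤ s) (h : s ^ m ≤ 4) :
    s ≤ 1 + 6 * aa m := by
  have hm' : (500 : ℝ) ≤ m := by exact_mod_cast hm
  by_contra hc
  have h1 : 1 + 3 / m < s := by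
    have : 6 * aa m = 3 / m := by unfold aa; field_simp; norm_num
    linarith [not_le.1 hc]
  have h0 : (0 : ℝ) ≤ 3 / m := by positivity
  have h2 : (1 + 3 / (m : ℝ)) ^ m < s ^ m := pow_lt_pow_left₀ h1 (by linarith) (by omega)
  have h3 := one_add_mul_le_pow (show (-2 : ℝ) ≤ 3 / m by linarith) m
  have h4 : (m : ℝ) * (3 / m) = 3 := by field_simp
  linarith

theorem b_pow_one {m : ℕ} (hm : 500 ≤ m) {s : ℝ} (hs : 0 ≤ s) (h : s ^ m ≤ 1) : s ≤ 1 :=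
  (pow_le_one_iff_of_nonneg hs (by omega)).1 h

end Vale.Agent.P139
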