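import Vale.Agent.P139.B.After

/-! P139 B/Core: assembly of the interior estimates.
Plan: `b_core_adm`: `b_aft_en`, `normSq^(m+1)/(m+1) ≤ 2a`, `β κ ≤ κ`; `‖q‖² = normSq`;
`b_aft_lg`; `pow_le_one₀`. `b_core_pres`: `|Pu - β| ≤ η` on `[0, Y - δ]` (`b_Plow`, `b_max`), `≤ 1`
on `[Y - δ, Y + h0]`; split the integral (`integral_add_adjacent_intervals`,
`intervalIntegral.norm_integral_le_of_norm_le_const`). `b_core`: WLOG `ε ≤ 1` (use `e = min ε 1`);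
`h0 = min τ (e² / 10000)`, `κ = h0³ / 100000`, `η = δ = e / 10`, `m0` from `b_aa_small` for the
minimum of all required bounds; `mono`: `(2 m X al)² = (X al)² / a² ≤ 50000 a ≤ e²` (`b_mono`,
`b_aa_mul`), `al ≤ 0` after `Y`; `core`: `2 m Pu ≥ 1 / (6 a)`; `|‖q‖ - 1| ≤ 1 - normSq`. -/

noncomputable section

open MeasureTheory Filter Topology Set Complex
open scoped ComplexConjugate ContDiff

namespace Vale.Agent.P139

variable {m : ℕ} {β Y h0 : ℝ} {q : ℝ → ℂ}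

theorem b_core_nsq (h : Cr m β q Y) (hY : 2 ≤ Y) (hp : 0 < h0) (hh0 : h0 ≤ 1 / 100)
    (h3 : Y + h0 ≤ 3) :
    ∀ X ∈ Icc 0 (Y + h0), 1 - (4 * aa m + h0) ≤ normSq (q X) ∧ normSq (q X) ≤ 1 :=
  (b_aft_aux h hY hh0 h3 ⟨by linarith, le_rfl⟩ (b_aft_al h hY hh0 h3)).1

theorem b_core_adm (h : Cr m β q Y) (hY : 2 ≤ Y) (hp : 0 < h0) (hh0 : h0 ≤ 1 / 10000)
    (h3 : Y + h0 ≤ 3) (ha : aa m ≤ h0 ^ 3 / 1000000) :
    Adm m β q (Y + h0) (h0 ^ 3 / 100000) := by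
  have hh : h0 ≤ 1 / 100 := by linarith
  have a0 := b_aa_pos h.std.big
  have a1 := b_aa_le h.std.big
  have hb := b_β_bd h.std.β_mem
  have hn := b_core_nsq h hY hp hh h3
  have hX := hn (Y + h0) ⟨by linarith, le_rfl⟩
  have h30 : 0 < h0 ^ 3 := pow_pos hp 3
  have h31 : h0 ^ 3 ≤ 1 := pow_le_one₀ hp.le (by linarith)
  refine ⟨h.std.isol.sol, ⟨by linarith, h3⟩, h.std.β_mem, ?_, ?_, ?_,
    fun X hX => pow_le_one₀ (normSq_nonneg _) (hn X hX).2⟩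
  · have h1 := b_aft_en h hY hp hh h3
    have h2 : normSq (q (Y + h0)) ^ (m + 1) / (m + 1) ≤ 2 * aa m := by
      have h4 := b_aa_mul h.std.big
      have h5 : normSq (q (Y + h0)) ^ (m + 1) ≤ 1 := pow_le_one₀ (normSq_nonneg _) hX.2
      rw [div_le_iff₀ (by positivity)]
      nlinarith
    unfold En at h1
    rw [← normSq_eq_norm_sq (q (Y + h0))]
    nlinarith [mul_le_mul_of_nonneg_left a1 a0.le, mul_le_mul_of_nonneg_right hb.2 h30.le]
  · refine le_of_sq_le_sq ?_ (norm_nonneg _)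
    rw [← normSq_eq_norm_sq]
    linarith [hX.1]
  · refine le_of_sq_le_sq ?_ (by norm_num)
    linarith [(b_aft_lg h hY hh h3 (Y + h0) ⟨by linarith, le_rfl⟩).1]

theorem b_core_pres (h : Cr m β q Y) (hY : 2 ≤ Y) (hp : 0 < h0) (hh0 : h0 ≤ 1 / 100)
    (h3 : Y + h0 ≤ 3) {η : ℝ} (hη0 : 0 < η) (hη : η ≤ 1) (ha : 216 * aa m ≤ η ^ 3) :
    ∫ X in (0 : ℝ)..(Y + h0), |Pu m q X - β| ≤ 4 * η + h0 := by
  have a0 := b_aa_pos h.std.big
  have hb := b_β_bd h.std.β_mem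
  have hc : Continuous fun X => |Pu m q X - β| :=
    ((b_Pu_cont h.std.isol).sub continuous_const).abs
  have h1 : η ^ 3 ≤ η := pow_le_of_le_one hη0.le hη (by norm_num)
  have h2 : ∫ X in (0 : ℝ)..(Y - η), |Pu m q X - β| ≤ ∫ _ in (0 : ℝ)..(Y - η), η := by
    refine intervalIntegral.integral_mono_on (by linarith) (hc.intervalIntegrable _ _)
      (continuous_const.intervalIntegrable _ _) fun X hX => abs_le.2 ⟨?_, ?_⟩
    · linarith [b_Plow h (η := η) (by linarith) hη0 (by linarith) X hX]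
    · linarith [b_max h X ⟨hX.1, by linarith [hX.2]⟩]
  have h4 : ∫ X in (Y - η)..(Y + h0), |Pu m q X - β| ≤ ∫ _ in (Y - η)..(Y + h0), (1 : ℝ) := by
    refine intervalIntegral.integral_mono_on (by linarith) (hc.intervalIntegrable _ _)
      (continuous_const.intervalIntegrable _ _) fun X hX => abs_le.2 ⟨?_, ?_⟩
    · linarith [b_Pu_pos h.std.isol (X := X) (by linarith [hX.1])]
    · have h5 : Pu m q X ≤ 1 := pow_le_one₀ (normSq_nonneg _)
        (b_core_nsq h hY hp hh0 h3 X ⟨by linarith [hX.1], hX.2⟩).2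
      linarith
  rw [intervalIntegral.integral_const, smul_eq_mul] at h2 h4
  rw [← intervalIntegral.integral_add_adjacent_intervals (b := Y - η) (hc.intervalIntegrable _ _)
    (hc.intervalIntegrable _ _)]
  nlinarith

theorem b_core {ε τ : ℝ} (hε : 0 < ε) (hτ : 0 < τ) : ∃ h0 κ : ℝ, 0 < h0 ∧ h0 ≤ τ ∧ h0 ≤ ε ∧
    0 < κ ∧ ∃ m0 : ℕ, 500 ≤ m0 ∧ ∀ m, m0 ≤ m → ∀ (β Y : ℝ) (q : ℝ → ℂ), Cr m β q Y → 2 ≤ Y →
      Y + h0 ≤ 3 → Adm m β q (Y + h0) κ ∧ InGood m β q Y (Y + h0) ε := by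
  obtain ⟨e, he0, he1, heε⟩ : ∃ e : ℝ, 0 < e ∧ e ≤ 1 ∧ e ≤ ε :=
    ⟨min ε 1, lt_min hε one_pos, min_le_right _ _, min_le_left _ _⟩
  have e2 : e ^ 2 ≤ e := pow_le_of_le_one he0.le he1 (by norm_num)
  have e3 : e ^ 3 ≤ e ^ 2 := pow_le_pow_of_le_one he0.le he1 (by norm_num)
  have e4 : 0 < e ^ 3 := pow_pos he0 3
  obtain ⟨h0, hp, hτ', hh⟩ : ∃ h0 : ℝ, 0 < h0 ∧ h0 ≤ τ ∧ h0 ≤ e ^ 2 / 10000 :=
    ⟨min τ (e ^ 2 / 10000), lt_min hτ (by positivity), min_le_left _ _, min_le_right _ _⟩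
  obtain ⟨m0, hm0, hm⟩ := b_aa_small (η := min (h0 ^ 3 / 1000000) (e ^ 3 / 1000000))
    (lt_min (by positivity) (by positivity))
  refine ⟨h0, h0 ^ 3 / 100000, hp, hτ', by linarith, by positivity, m0, hm0,
    fun m hmm β Y q h hY h3 => ?_⟩
  obtain ⟨a1, a2⟩ := le_min_iff.1 (hm m hmm)
  have a0 := b_aa_pos h.std.big
  have a3 := b_aa_mul h.std.big
  have hb := b_β_bd h.std.β_mem
  have hh' : h0 ≤ 1 / 100 := by linarith
  refine ⟨b_core_adm h hY hp (by linarith) h3 a1, fun X hX => ⟨?_, ?_⟩, fun X hX => ?_,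
    fun X hX => ?_, ?_⟩
  · obtain ⟨h1, h2⟩ := b_core_nsq h hY hp hh' h3 X hX
    rw [normSq_eq_norm_sq] at h1 h2
    have h4 : ‖q X‖ ≤ 1 := (sq_le_one_iff₀ (norm_nonneg _)).1 h2
    have h5 : ‖q X‖ ^ 2 ≤ ‖q X‖ := pow_le_of_le_one (norm_nonneg _) h4 (by norm_num)
    exact abs_le.2 ⟨by linarith, by linarith⟩
  · refine le_trans ?_ heε
    rcases le_total X Y with h1 | h1
    · exact b_cr_lg h hY he1 (by linarith) he0 X ⟨hX.1, h1⟩
    · refine le_of_sq_le_sq ?_ he0.le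
      linarith [(b_aft_lg h hY hh' h3 X ⟨h1, hX.2⟩).2]
  · have h1 := h.ge X hX
    have h2 : (0 : ℝ) ≤ m := Nat.cast_nonneg m
    have h4 : 1 / 6 * (6 * aa m) ≤ Pu m q X * ε :=
      mul_le_mul (by linarith) (by linarith) (by linarith) (by linarith)
    rw [div_le_iff₀ hε]
    nlinarith [mul_le_mul_of_nonneg_left h4 h2]
  · have h2 : (0 : ℝ) ≤ m := Nat.cast_nonneg m
    rcases le_or_gt (al q X) 0 with h1 | h1
    · exact (mul_nonpos_of_nonneg_of_nonpos (by have := hX.1; positivity) h1).trans hε.le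
    have h4 : X ≤ Y := by
      by_contra hc
      exact absurd (b_aft_al h hY hh' h3 X ⟨(not_le.1 hc).le, hX.2⟩) (not_le.2 h1)
    have h5 := mul_le_mul_of_nonneg_left (b_mono h ⟨hX.1, h4⟩ h1) (sq_nonneg (2 * (m : ℝ)))
    have h6 : (2 * (m : ℝ)) ^ 2 * (50000 * aa m ^ 3) = 50000 * aa m := by
      linear_combination 50000 * aa m * (2 * m * aa m + 1) * a3
    refine (le_of_sq_le_sq ?_ he0.le).trans heε
    rw [mul_assoc, mul_pow]
    linarith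
  · have h1 := b_core_pres h hY hp hh' h3 (η := e / 10) (by positivity) (by linarith)
      (by rw [div_pow]; linarith)
    linarith

end Vale.Agent.P139
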