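import Vale.Agent.P139.B.Esc

/-! P139 B/Core1: one-sided bounds for `α` and the lower bound for `P` before the crossing.
On `[0, Y]`: `PK = Pu ≤ β + 17 a` (`b_max`), `|h| ≤ 20 a` (`b_cr_h`), `Pu ≥ 1/6`.
Plan: `b_al_up`: `A' ≤ 37 a X^5`, `b_incr` against `37 a X^6 / 6` (`X = 0`: `b_al_zero`).
`b_back`: `b_last` for `al` on `[0, X1]`; if `al X2 = 0` and `X2 > 0` then `A' X2 ≥ 0` (else
`b_right_neg`), which gives `Pu X2 ≥ β + h`; if `X2 = 0` use `0 ≤ al 0` and `b_al_zero`.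
`b_mono`: on `[X2, X1]`, `(A²)' = 2 A A' ≤ 74 a X1^11 α ≤ 444 a² X1^11 Pu'` since
`Pu' = α Pu / a ≥ α / (6 a)`; `b_incr` gives `A(X1)² ≤ 444 a² X1^11 · 37 a`.
`b_Plow`: suppose `Pu X1 < β - η`. Then `al X1 ≤ 0` (`b_back`), `al ≤ 0` on `[X1, Y]` (`b_bar` for
`-al`, as in `b_escape`), `A' ≤ -η X^5 / 2`, `A X ≤ -η (X^6 - X1^6) / 12 ≤ -η X^5 (X - X1) / 12`,
`al X ≤ -η (X - X1) / 36`, `Pu' ≤ -η (X - X1) / (216 a)`, so
`0 ≤ Pu (X1 + δ) ≤ Pu X1 - η δ² / (432 a) < 1/2 - 1/2`. -/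

noncomputable section

open MeasureTheory Filter Topology Set Complex
open scoped ComplexConjugate ContDiff

namespace Vale.Agent.P139

variable {m : ℕ} {β Y : ℝ} {q : ℝ → ℂ}

theorem b_core1_PK (h : Cr m β q Y) {X : ℝ} (hX : X ∈ Icc 0 Y) : PK m (q X) = Pu m q X := by
  have := b_max h X hX
  have := (b_β_bd h.std.β_mem).2
  have := b_aa_le h.std.big
  exact b_PK_eq (show Pu m q X ≤ 4 by linarith)

theorem b_core1_pw (c : ℝ) (n : ℕ) (X : ℝ) :
    HasDerivAt (fun Y : ℝ => c * Y ^ (n + 1)) (c * ((n + 1) * X ^ n)) X := by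
  simpa using (hasDerivAt_pow (n + 1) X).const_mul c

/-- `Pu' = α Pu / a` -/
theorem b_core1_Pd (h : Std m β q) (x y : ℝ) : aa m * (2 * m * x * y) = x * y := by
  have := b_aa_mul h.big
  calc _ = 2 * m * aa m * (x * y) := by ring
    _ = _ := by rw [this, one_mul]

theorem b_core1_Ad (h : Cr m β q Y) {X : ℝ} (hX : X ∈ Ioc 0 Y) {c : ℝ} (hc : Pu m q X ≤ β + c) :
    ∃ d, HasDerivAt (AA6 q) d X ∧ d ≤ X ^ 5 * (c + 20 * aa m) := by
  refine ⟨_, b_AA_deriv h.std.isol hX.1, ?_⟩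
  have h1 := (abs_le.1 (b_cr_h h X ⟨hX.1.le, hX.2⟩).2).1
  have h2 : 0 ≤ X * al q X ^ 2 := by have := hX.1; positivity
  rw [b_core1_PK h ⟨hX.1.le, hX.2⟩]
  exact mul_le_mul_of_nonneg_left (by linarith) (by have := hX.1; positivity)

theorem b_al_up (h : Cr m β q Y) : ∀ X ∈ Icc 0 Y, al q X ≤ 7 * aa m := by
  intro X hX
  have ha := b_aa_pos h.std.big
  rcases eq_or_lt_of_le hX.1 with h0 | h0
  · subst h0
    rw [b_al_zero h.std.isol, b_core1_PK h hX]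
    linarith [b_max h 0 hX]
  · have h1 := b_incr (f := AA6 q) (g := fun Z => 37 / 6 * aa m * Z ^ (5 + 1)) hX.1
      ((b_AA_cont h.std.isol).mono fun Z hZ => hZ.1) (by fun_prop) fun Z hZ => by
        obtain ⟨d, h2, h3⟩ := b_core1_Ad h ⟨hZ.1, hZ.2.le.trans hX.2⟩
          (b_max h Z ⟨hZ.1.le, hZ.2.le.trans hX.2⟩)
        exact ⟨d, _, h2, b_core1_pw _ 5 Z, h3.trans (le_of_eq (by push_cast; ring))⟩
    simp only [AA6] at h1
    have h2 : 0 < X ^ 6 := by positivity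
    by_contra hc
    have := not_le.1 hc
    norm_num at h1
    nlinarith

theorem b_core1_mono (h : Std m β q) {x0 x1 : ℝ} (h0 : 0 ≤ x0) (h01 : x0 ≤ x1)
    (h1 : ∀ X ∈ Icc x0 x1, 0 ≤ al q X) : Pu m q x0 ≤ Pu m q x1 := by
  have := b_incr (f := fun _ => (0 : ℝ)) (g := Pu m q) h01 continuousOn_const
    (b_Pu_cont h.isol).continuousOn fun Z hZ =>
      ⟨0, _, hasDerivAt_const _ _, b_Pu_deriv h.isol (h0.trans hZ.1.le), by
        have := h1 Z ⟨hZ.1.le, hZ.2.le⟩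
        have := b_Pu_pos h.isol (h0.trans hZ.1.le)
        positivity⟩
  linarith

theorem b_core1_anti (h : Std m β q) {x0 x1 : ℝ} (h0 : 0 ≤ x0) (h01 : x0 ≤ x1)
    (h1 : ∀ X ∈ Icc x0 x1, al q X ≤ 0) : Pu m q x1 ≤ Pu m q x0 := by
  have := b_incr (f := Pu m q) (g := fun _ => (0 : ℝ)) h01 (b_Pu_cont h.isol).continuousOn
    continuousOn_const fun Z hZ =>
      ⟨_, 0, b_Pu_deriv h.isol (h0.trans hZ.1.le), hasDerivAt_const _ _,
        mul_nonpos_of_nonpos_of_nonneg (mul_nonpos_of_nonneg_of_nonpos (by positivity)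
          (h1 Z ⟨hZ.1.le, hZ.2.le⟩)) (b_Pu_pos h.isol (h0.trans hZ.1.le)).le⟩
  linarith

theorem b_back (h : Cr m β q Y) {X1 : ℝ} (hX : X1 ∈ Icc 0 Y) (h1 : 0 < al q X1) :
    ∃ X2 ∈ Icc 0 X1, (∀ X ∈ Icc X2 X1, 0 ≤ al q X) ∧ AA6 q X2 = 0 ∧
      β - 20 * aa m ≤ Pu m q X2 ∧ Pu m q X2 ≤ Pu m q X1 := by
  obtain ⟨X2, h2, h3, h4, h5⟩ := b_last hX.1 ((b_al_cont h.std.isol).mono fun Z hZ => hZ.1) h1
  have ha := b_aa_pos h.std.big
  have h6 : ∀ X ∈ Icc X2 X1, 0 ≤ al q X := fun X hX => by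
    rcases eq_or_lt_of_le hX.1 with e | e
    · rw [← e]; exact h4
    · exact (h3 X ⟨e, hX.2⟩).le
  have hm : X2 ∈ Icc 0 Y := ⟨h2.1, h2.2.trans hX.2⟩
  have h7 : AA6 q X2 = 0 := by
    rcases h5 with e | e <;> simp [AA6, e]
  refine ⟨X2, h2, h6, h7, ?_, b_core1_mono h.std h2.1 h2.2 h6⟩
  rcases eq_or_lt_of_le h2.1 with e | e
  · subst e
    rw [b_al_zero h.std.isol, b_core1_PK h hm] at h4
    linarith
  · have h8 : al q X2 = 0 := h5.resolve_left e.ne'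
    have h9 : X2 < X1 := lt_of_le_of_ne h2.2 fun e' => by rw [e'] at h8; linarith
    by_contra hc
    have k1 := (abs_le.1 (b_cr_h h X2 hm).2).1
    have k2 := b_right_neg (b_AA_deriv h.std.isol e) (by
      rw [b_core1_PK h hm, h8]
      exact mul_neg_of_pos_of_neg (by positivity) (by linarith [not_le.1 hc]))
    obtain ⟨X, k3, k4⟩ := (k2.and (Ioo_mem_nhdsGT h9)).exists
    have k5 := h3 X ⟨k4.1, k4.2.le⟩
    have k6 : 0 < X := e.trans k4.1
    rw [h7] at k3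
    exact absurd k3 (not_lt.2 (by unfold AA6; positivity))

theorem b_mono (h : Cr m β q Y) {X1 : ℝ} (hX : X1 ∈ Icc 0 Y) (h1 : 0 < al q X1) :
    (X1 * al q X1) ^ 2 ≤ 50000 * aa m ^ 3 := by
  have ha := b_aa_pos h.std.big
  have hb := (b_β_bd h.std.β_mem).1
  rcases eq_or_lt_of_le hX.1 with e | e
  · rw [← e]; simp; positivity
  obtain ⟨X2, h2, h3, h4, h5, -⟩ := b_back h hX h1
  have h6 := b_incr (f := fun Z => AA6 q Z ^ 2) (g := fun Z => 444 * aa m ^ 2 * X1 ^ 11 * Pu m q Z)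
    h2.2 (((b_AA_cont h.std.isol).mono fun Z hZ => h2.1.trans hZ.1).pow 2)
    (continuousOn_const.mul (b_Pu_cont h.std.isol).continuousOn) fun Z hZ => by
      have z0 : 0 < Z := h2.1.trans_lt hZ.1
      have z1 : Z ∈ Icc 0 Y := ⟨z0.le, hZ.2.le.trans hX.2⟩
      obtain ⟨d, k1, k2⟩ := b_core1_Ad h ⟨z0, z1.2⟩ (b_max h Z z1)
      refine ⟨_, _, k1.pow 2, (b_Pu_deriv h.std.isol z0.le).const_mul _, ?_⟩
      have k3 := h3 Z ⟨hZ.1.le, hZ.2.le⟩
      have k4 := h.ge Z z1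
      have k5 := b_core1_Pd h.std (al q Z) (Pu m q Z)
      have k6 : Z ^ 11 ≤ X1 ^ 11 := pow_le_pow_left₀ z0.le hZ.2.le _
      calc ((2 : ℕ) : ℝ) * AA6 q Z ^ (2 - 1) * d = 2 * (Z ^ 6 * al q Z) * d := by simp [AA6]
        _ ≤ 2 * (Z ^ 6 * al q Z) * (Z ^ 5 * (17 * aa m + 20 * aa m)) := by gcongr
        _ = 74 * aa m * Z ^ 11 * al q Z := by ring
        _ ≤ 74 * aa m * X1 ^ 11 * (6 * (al q Z * Pu m q Z)) := by
          gcongr
          nlinarith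
        _ = _ := by rw [← k5]; ring
  have h7 := b_max h X1 hX
  rw [h4] at h6
  have h9 : X1 ^ 10 * (X1 * al q X1) ^ 2 ≤ X1 ^ 10 * (16428 * aa m ^ 3 * X1) := by
    calc _ = AA6 q X1 ^ 2 - 0 ^ 2 := by unfold AA6; ring
      _ ≤ 444 * aa m ^ 2 * X1 ^ 11 * (Pu m q X1 - Pu m q X2) := by linarith
      _ ≤ 444 * aa m ^ 2 * X1 ^ 11 * (37 * aa m) := by gcongr; linarith
      _ = _ := by ring
  have k1 := le_of_mul_le_mul_left h9 (by positivity)
  have k2 : X1 ≤ 3 := hX.2.trans h.Y_mem.2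
  have k3 : 0 < aa m ^ 3 := by positivity
  nlinarith

theorem b_Plow (h : Cr m β q Y) {η δ : ℝ} (hη : 40 * aa m ≤ η) (hδ : 0 < δ)
    (ha : 216 * aa m ≤ η * δ ^ 2) : ∀ X ∈ Icc 0 (Y - δ), β - η ≤ Pu m q X := by
  intro X1 hX
  have a0 := b_aa_pos h.std.big
  obtain ⟨b1, b2⟩ := b_β_bd h.std.β_mem
  have hX1 : X1 ∈ Icc 0 Y := ⟨hX.1, by linarith [hX.2]⟩
  by_contra hc
  replace hc := not_le.1 hc
  have h1 : al q X1 ≤ 0 := by
    by_contra h2
    obtain ⟨X2, -, -, -, h3, h4⟩ := b_back h hX1 (not_le.1 h2)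
    linarith
  have h2 : ∀ X ∈ Icc X1 Y, 0 ≤ -al q X := by
    refine b_bar ((b_al_cont h.std.isol).mono fun Z hZ => hX.1.trans hZ.1).neg (by linarith)
      fun T hT k1 k2 => ?_
    have k3 := b_core1_anti h.std hX.1 hT.1 fun Z hZ => by linarith [k1 Z hZ]
    have T0 : 0 ≤ T := hX.1.trans hT.1
    rcases eq_or_lt_of_le T0 with e | e
    · subst e
      rw [b_al_zero h.std.isol, b_core1_PK h ⟨le_rfl, h.Y_mem.1⟩] at k2
      linarith
    · obtain ⟨d, k4, k5⟩ := b_core1_Ad h ⟨e, hT.2.le⟩ (c := -η) (by linarith)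
      have k6 := b_right_neg k4 (k5.trans_lt (mul_neg_of_pos_of_neg (by positivity) (by linarith)))
      filter_upwards [k6, self_mem_nhdsWithin] with Z k7 k8
      have k9 : al q T = 0 := by linarith
      have z0 : 0 < Z := e.trans k8
      simp only [AA6, k9, mul_zero] at k7
      by_contra k10
      have : 0 < al q Z := by linarith [not_le.1 k10]
      exact absurd k7 (not_lt.2 (by positivity))
  have h3 : ∀ X ∈ Ioc X1 Y, al q X ≤ -(η * (X - X1) / 36) := fun X hX' => by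
    have z0 : 0 < X := hX.1.trans_lt hX'.1
    have k1 := b_incr (f := AA6 q) (g := fun Z => -(η / 12) * Z ^ (5 + 1)) hX'.1.le
      ((b_AA_cont h.std.isol).mono fun Z hZ => hX.1.trans hZ.1) (by fun_prop) fun Z hZ => by
        have k2 := b_core1_anti h.std hX.1 hZ.1.le fun W hW => by
          linarith [h2 W ⟨hW.1, hW.2.trans (hZ.2.le.trans hX'.2)⟩]
        have z1 : 0 < Z := hX.1.trans_lt hZ.1
        obtain ⟨d, k4, k5⟩ := b_core1_Ad h ⟨z1, hZ.2.le.trans hX'.2⟩ (c := -η) (by linarith)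
        refine ⟨d, _, k4, b_core1_pw _ 5 Z, k5.trans ?_⟩
        have : 0 < Z ^ 5 := by positivity
        push_cast
        nlinarith
    have k2 : AA6 q X1 ≤ 0 := mul_nonpos_of_nonneg_of_nonpos (by have := hX.1; positivity) h1
    have k3 : X1 ^ 5 ≤ X ^ 5 := pow_le_pow_left₀ hX.1 hX'.1.le _
    have k4 : X1 ^ (5 + 1) ≤ X ^ 5 * X1 := by
      rw [pow_succ]; exact mul_le_mul_of_nonneg_right k3 hX.1
    have k5 : X ^ 5 * (X * al q X) ≤ X ^ 5 * (-(η * (X - X1) / 12)) := by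
      have e1 : AA6 q X = X ^ 5 * (X * al q X) := by unfold AA6; ring
      have e0 : 0 ≤ η := by linarith
      have e2 := mul_le_mul_of_nonneg_left k4 e0
      have e3 : X ^ 5 * -(η * (X - X1) / 12) =
          -(η / 12) * X ^ (5 + 1) + η * (X ^ 5 * X1) / 12 := by ring
      rw [e3, ← e1]
      simp only [Nat.reduceAdd] at k1 e2 ⊢
      linarith
    have k6 := le_of_mul_le_mul_left k5 (by positivity)
    have k7 : X ≤ 3 := hX'.2.trans h.Y_mem.2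
    have k8 := h2 X ⟨hX'.1.le, hX'.2⟩
    nlinarith
  have h4 := b_incr (f := fun Z => aa m * Pu m q Z) (g := fun Z => -(η / 432) * (Z - X1) ^ 2)
    (show X1 ≤ X1 + δ by linarith) (continuousOn_const.mul (b_Pu_cont h.std.isol).continuousOn)
    (by fun_prop) fun Z hZ => by
      have z1 : Z ∈ Ioc X1 Y := ⟨hZ.1, by linarith [hZ.2, hX.2]⟩
      have z0 : 0 ≤ Z := hX.1.trans hZ.1.le
      refine ⟨_, _, (b_Pu_deriv h.std.isol z0).const_mul _,
        (((hasDerivAt_id Z).sub_const X1).pow 2).const_mul _, ?_⟩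
      rw [b_core1_Pd h.std]
      have k1 := h3 Z z1
      have k2 := h.ge Z ⟨z0, z1.2⟩
      have k3 := h2 Z ⟨z1.1.le, z1.2⟩
      simp only [id]
      norm_num
      nlinarith
  have h5 := b_Pu_pos h.std.isol (show 0 ≤ X1 + δ by linarith [hX.1])
  simp only [add_sub_cancel_left, sub_self] at h4
  nlinarith

end Vale.Agent.P139
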