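import Vale.Agent.P139.B.Core1

/-! P139 B/Core2: energy bounds; smallness of the logarithmic derivative before the crossing.
Plan: `b_en_up`: `b_incr` with `b_En_le` against `a² X` (`normSq ≤ 1` gives `Pu ≤ 1 ≤ 4`),
`En 0 ≤ β normSq (q 0) ≤ β`. `b_kin`: unfold `En`, `normSq^(m+1) / (m+1) ≤ 1 / (m+1) ≤ 2 a`.
`b_cr_kin`: `1 - normSq ≤ 4 a`, `β ≤ 7/20`. `b_cr_lg`: for `X ≥ 1`: `‖q'‖² ≤ 4 a`,
`‖q'/q‖² ≤ 5 a ≤ η²`. For `X ≤ 1`: `|Pu - β| ≤ η/2` on `[0, 1]` (`b_Plow` with `η/2`, `δ = 1`, and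
`b_max`), `s al² ≤ 5 a` (`b_lg_sq`, `b_cr_kin`), so `|A'| ≤ s^5 (η/2 + 25 a) ≤ s^5 η`,
`|al| ≤ η / 6` (`b_incr` twice; `X = 0` by `b_al_zero`), `|ph| ≤ 5 a ≤ η / 2`. -/

noncomputable section

open MeasureTheory Filter Topology Set Complex
open scoped ComplexConjugate ContDiff

namespace Vale.Agent.P139

variable {m : ℕ} {β Y T : ℝ} {q : ℝ → ℂ}

theorem b_en_up (h : Std m β q) (hT : T ∈ Icc (0 : ℝ) 3) (h1 : ∀ s ∈ Icc 0 T, normSq (q s) ≤ 1) :
    En m β q T ≤ β + 3 * aa m ^ 2 := by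
  have hb := b_β_bd h.β_mem
  have h2 := b_incr (f := En m β q) (g := fun X => aa m ^ 2 * X) hT.1
    (b_En_cont h.isol).continuousOn (by fun_prop) fun X hX => by
      have h3 := h1 X ⟨hX.1.le, hX.2.le⟩
      obtain ⟨d, h4, h5⟩ := b_En_le h.isol hX.1
        ((pow_le_one₀ (normSq_nonneg _) h3).trans (by norm_num))
      refine ⟨d, _, h4, (hasDerivAt_id' X).const_mul _, ?_⟩
      nlinarith [sq_nonneg ‖deriv q X‖, mul_le_mul_of_nonneg_left h3 (sq_nonneg (aa m))]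
  have h6 : En m β q 0 ≤ β := by
    have h7 : 0 ≤ normSq (q 0) ^ (m + 1) / (m + 1) :=
      div_nonneg (pow_nonneg (normSq_nonneg _) _) (by positivity)
    have h8 := mul_le_mul_of_nonneg_left (h1 0 ⟨le_rfl, hT.1⟩) (show 0 ≤ β by linarith)
    unfold En
    linarith
  nlinarith [mul_le_mul_of_nonneg_left hT.2 (sq_nonneg (aa m))]

theorem b_kin (h : Std m β q) (hT : T ∈ Icc (0 : ℝ) 3) (h1 : ∀ s ∈ Icc 0 T, normSq (q s) ≤ 1) :
    T * ‖deriv q T‖ ^ 2 ≤ β * (1 - normSq (q T)) + 3 * aa m ^ 2 + 2 * aa m := by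
  have h2 := b_en_up h hT h1
  have h3 : normSq (q T) ^ (m + 1) / (m + 1) ≤ 2 * aa m := by
    rw [div_le_iff₀ (by positivity)]
    have h4 := pow_le_one₀ (n := m + 1) (normSq_nonneg _) (h1 T ⟨hT.1, le_rfl⟩)
    have h5 := b_aa_mul h.big
    have h6 := b_aa_pos h.big
    linarith
  unfold En at h2
  linarith

theorem b_cr_kin (h : Cr m β q Y) : ∀ X ∈ Icc 0 Y, X * ‖deriv q X‖ ^ 2 ≤ 4 * aa m := by
  intro X hX
  have h1 := b_kin h.std ⟨hX.1, hX.2.trans h.Y_mem.2⟩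
    fun s hs => (b_cr_nsq h s ⟨hs.1, hs.2.trans hX.2⟩).2
  have h2 := b_cr_nsq h X hX
  have hb := b_β_bd h.std.β_mem
  have h3 := b_aa_pos h.std.big
  have h4 := b_aa_le h.std.big
  have h5 := mul_le_mul hb.2 (show 1 - normSq (q X) ≤ 4 * aa m by linarith) (by linarith)
    (by norm_num)
  nlinarith

theorem b_core2_lg (h : Cr m β q Y) {X : ℝ} (hX : X ∈ Icc 0 Y) :
    X * (al q X ^ 2 + ph q X ^ 2) ≤ 5 * aa m := by
  have h1 := b_cr_kin h X hX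
  have h2 := (b_cr_nsq h X hX).1
  have h3 := b_aa_pos h.std.big
  have h4 := b_aa_le h.std.big
  rw [(b_lg_sq h.std.isol hX.1).1, ← mul_assoc] at h1
  have h5 : 0 ≤ X * (al q X ^ 2 + ph q X ^ 2) := mul_nonneg hX.1 (by positivity)
  have h6 := mul_le_mul_of_nonneg_left (show 4 / 5 ≤ normSq (q X) by linarith) h5
  linarith

theorem b_cr_lg (h : Cr m β q Y) (hY : 2 ≤ Y) {η : ℝ} (hη : η ≤ 1) (ha : 500 * aa m ≤ η ^ 2)
    (hη0 : 0 < η) : ∀ X ∈ Icc 0 Y, ‖deriv q X / q X‖ ≤ η := by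
  intro X hX
  have a0 := b_aa_pos h.std.big
  have a1 := b_aa_le h.std.big
  have hb := b_β_bd h.std.β_mem
  have a2 : 500 * aa m ≤ η := ha.trans (by nlinarith)
  refine abs_le_of_sq_le_sq' ?_ hη0.le |>.2
  rw [(b_lg_sq h.std.isol hX.1).2]
  rcases le_total 1 X with h1 | h1
  · have h2 := b_core2_lg h hX
    have h3 := mul_le_mul_of_nonneg_right h1 (show 0 ≤ al q X ^ 2 + ph q X ^ 2 by positivity)
    linarith
  have hP : ∀ s ∈ Icc (0 : ℝ) 1, -(η / 2) ≤ PK m (q s) - β ∧ PK m (q s) - β ≤ η / 2 := by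
    intro s hs
    have h2 := b_Plow h (η := η / 2) (δ := 1) (by linarith) one_pos (by linarith) s
      ⟨hs.1, by linarith [hs.2]⟩
    have h3 := b_max h s ⟨hs.1, by linarith [hs.2]⟩
    rw [b_PK_eq (h3.trans (by linarith))]
    unfold Pu at h2 h3
    constructor <;> linarith
  have hD : ∀ s ∈ Ioo 0 X, -η ≤ PK m (q s) - β - hh q s - s * al q s ^ 2 ∧
      PK m (q s) - β - hh q s - s * al q s ^ 2 ≤ η := by
    intro s hs
    have hs' : s ∈ Icc 0 Y := ⟨hs.1.le, hs.2.le.trans hX.2⟩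
    have h2 := hP s ⟨hs.1.le, hs.2.le.trans h1⟩
    have h3 := abs_le.1 (b_cr_h h s hs').2
    have h4 := b_core2_lg h hs'
    have h5 := mul_nonneg hs.1.le (sq_nonneg (al q s))
    have h6 := mul_nonneg hs.1.le (sq_nonneg (ph q s))
    constructor <;> linarith
  have hg : ∀ c s : ℝ, HasDerivAt (fun s : ℝ => s ^ 6 * (c / 6)) (s ^ 5 * c) s := fun c s =>
    ((hasDerivAt_pow 6 s).mul_const _).congr_deriv (by push_cast; ring)
  have hc : ContinuousOn (AA6 q) (Icc 0 X) := (b_AA_cont h.std.isol).mono Icc_subset_Ici_self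
  have u1 := b_incr (g := fun s : ℝ => s ^ 6 * (η / 6)) hX.1 hc (by fun_prop) fun s hs =>
    ⟨_, _, b_AA_deriv h.std.isol hs.1, hg η s,
      mul_le_mul_of_nonneg_left (hD s hs).2 (pow_pos hs.1 5).le⟩
  have u2 := b_incr (f := fun s : ℝ => s ^ 6 * (-η / 6)) hX.1 (by fun_prop) hc fun s hs =>
    ⟨_, _, hg (-η) s, b_AA_deriv h.std.isol hs.1,
      mul_le_mul_of_nonneg_left (hD s hs).1 (pow_pos hs.1 5).le⟩
  simp only [AA6, zero_pow (show 6 ≠ 0 by norm_num), zero_mul, sub_zero] at u1 u2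
  have u3 : -(η / 6) ≤ al q X ∧ al q X ≤ η / 6 := by
    rcases hX.1.eq_or_lt with h0 | h0
    · have h2 := hP 0 ⟨le_rfl, zero_le_one⟩
      rw [← h0, b_al_zero h.std.isol]
      constructor <;> linarith
    · exact ⟨(neg_div _ _).ge.trans (le_of_mul_le_mul_left u2 (pow_pos h0 6)),
        le_of_mul_le_mul_left u1 (pow_pos h0 6)⟩
  have u4 := sq_le_sq' u3.1 u3.2
  have u5 := abs_le.1 (b_cr_h h X hX).1
  have u6 := sq_le_sq' (show -(η / 2) ≤ ph q X by linarith) (show ph q X ≤ η / 2 by linarith)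
  nlinarith [sq_nonneg η]

end Vale.Agent.P139
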