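import Vale.Agent.P139.N

/-! P139 part B: definitions shared by the interior (B1) and the exterior (B2) analysis. -/

noncomputable section

open MeasureTheory Filter Topology Set Complex
open scoped ComplexConjugate ContDiff

namespace Vale.Agent.P139

/-- the cut-off potential `min (|z|^(2m)) 4` -/
def PK (m : ℕ) (z : ℂ) : ℝ := min (normSq z ^ m) 4

/-- the cut-off nonlinearity -/
def FK (m : ℕ) (β : ℝ) (z : ℂ) : ℂ := ((PK m z : ℂ) - β - I * aa m) * z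

/-- a solution of the cut-off profile equation on `X > 0` -/
structure Sol (m : ℕ) (β : ℝ) (q : ℝ → ℂ) : Prop where
  d1 : Differentiable ℝ q
  c1 : Continuous (deriv q)
  d2 : ∀ X : ℝ, 0 < X →
    HasDerivAt (deriv q) ((FK m β (q X) - (6 + I * X) * deriv q X) / X) X

/-- the level zero mismatch of the datum at `X0` -/
def mis0 (m : ℕ) (β : ℝ) (q : ℝ → ℂ) (X0 : ℝ) : ℂ :=
  (row (nu0 m β - 5 / 2) (5 / 2) X0).1 * q X0 +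
    (row (nu0 m β - 5 / 2) (5 / 2) X0).2 * (X0 * deriv q X0 + 5 / 2 * q X0)

/-- admissible data for the exterior problem -/
structure Adm (m : ℕ) (β : ℝ) (q : ℝ → ℂ) (X0 κ : ℝ) : Prop where
  sol : Sol m β q
  X0_mem : X0 ∈ Icc (2 : ℝ) 3
  β_mem : β ∈ Icc βlo βhi
  en : X0 * ‖deriv q X0‖ ^ 2 + β * ‖q X0‖ ^ 2 ≤ β * (1 - κ)
  low : 1 / 2 ≤ ‖q X0‖
  der : ‖deriv q X0‖ ≤ 1 / 100
  inner : ∀ X ∈ Icc 0 X0, normSq (q X) ^ m ≤ 1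

/-- the conclusions in the exterior region -/
structure ExtGood (m : ℕ) (β : ℝ) (q : ℝ → ℂ) (X0 ε C : ℝ) : Prop where
  P_le : ∀ X, X0 ≤ X → normSq (q X) ^ m ≤ 1
  jet : ∀ j, ∃ C, ∀ X : ℝ, 1 ≤ X → ‖Du^[j] (Gt m β q) X‖ ≤ C
  symb : ∀ j, ∃ C, ∀ X : ℝ, 1 ≤ X → ‖iteratedDeriv j q X‖ ≤ C * X ^ (-aa m - j)
  ext : ∀ j ≤ 4, ∀ X, X0 ≤ X →
    ‖Du^[j] (fun Y => ((m : ℂ) + 1) * (normSq (Gt m β q Y) : ℂ) ^ m) X‖ ≤ ε ∧
    ‖Du^[j] (fun Y => (m : ℂ) * (normSq (Gt m β q Y) : ℂ) ^ (m - 1) * Gt m β q Y ^ 2) X‖ ≤ ε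
  jets : ∀ j ≤ 4, ∀ X, X0 ≤ X → ‖Du^[j] (Gt m β q) X‖ ≤ C
  low : ∀ X, X0 ≤ X → 1 / C ≤ ‖Gt m β q X‖

end Vale.Agent.P139
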