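import Vale.Agent.P139.B.Def

/-! P139 part B1: definitions for the interior analysis. `a = aa m = 1 / (2 m)`. -/

noncomputable section

open MeasureTheory Filter Topology Set Complex
open scoped ComplexConjugate ContDiff

namespace Vale.Agent.P139

/-- the right hand side of the integral equation for `q'` -/
def KK (m : ℕ) (β : ℝ) (q : ℝ → ℂ) (Y : ℝ) : ℂ :=
  ∫ t in (0 : ℝ)..1, (t : ℂ) ^ 5 * exp (I * ((t - 1) * Y : ℝ)) * FK m β (q (t * Y))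

/-- a solution of the cut-off equation which is regular at `0` -/
structure ISol (m : ℕ) (β : ℝ) (q : ℝ → ℂ) : Prop where
  sol : Sol m β q
  int : ∀ X, deriv q X = KK m β q X
  ne0 : q 0 ≠ 0

/-- `|q|^(2m)` without cut-off -/
def Pu (m : ℕ) (q : ℝ → ℂ) (X : ℝ) : ℝ := normSq (q X) ^ m

/-- real part of the logarithmic derivative -/
def al (q : ℝ → ℂ) (X : ℝ) : ℝ := (deriv q X / q X).re

/-- imaginary part of the logarithmic derivative -/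
def ph (q : ℝ → ℂ) (X : ℝ) : ℝ := (deriv q X / q X).im

def hh (q : ℝ → ℂ) (X : ℝ) : ℝ := -X * ph q X * (1 + ph q X)

/-- `A = X^6 α` -/
def AA6 (q : ℝ → ℂ) (X : ℝ) : ℝ := X ^ 6 * al q X

/-- the energy -/
def En (m : ℕ) (β : ℝ) (q : ℝ → ℂ) (X : ℝ) : ℝ :=
  X * ‖deriv q X‖ ^ 2 + β * normSq (q X) - normSq (q X) ^ (m + 1) / (m + 1)

/-- standing assumptions -/
structure Std (m : ℕ) (β : ℝ) (q : ℝ → ℂ) : Prop where
  isol : ISol m β q
  big : 500 ≤ m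
  β_mem : β ∈ Icc βlo βhi

/-- `Y` is the first crossing of the level `β / 2` -/
structure Cr (m : ℕ) (β : ℝ) (q : ℝ → ℂ) (Y : ℝ) : Prop where
  std : Std m β q
  Y_mem : Y ∈ Icc (0 : ℝ) 3
  ge : ∀ X ∈ Icc 0 Y, β / 2 ≤ Pu m q X
  le : Pu m q Y ≤ β / 2

/-- the first time in `[0, b]` at which `g ≤ 0`, or `b` -/
def fst0 (g : ℝ → ℝ) (b : ℝ) : ℝ := sInf ({X | X ∈ Icc 0 b ∧ g X ≤ 0} ∪ {b})

/-- the conclusions in the interior region -/
structure InGood (m : ℕ) (β : ℝ) (q : ℝ → ℂ) (Y X0 ε : ℝ) : Prop where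
  near : ∀ X ∈ Icc 0 X0, |‖q X‖ - 1| ≤ ε ∧ ‖deriv q X / q X‖ ≤ ε
  core : ∀ X ∈ Icc 0 Y, 1 / ε ≤ 2 * m * Pu m q X
  mono : ∀ X ∈ Icc 0 X0, 2 * m * X * al q X ≤ ε
  pres : ∫ X in (0 : ℝ)..X0, |Pu m q X - β| ≤ ε

theorem b_aa_pos {m : ℕ} (h : 500 ≤ m) : 0 < aa m := by
  have : (500 : ℝ) ≤ m := by exact_mod_cast h
  unfold aa; positivity

theorem b_aa_le {m : ℕ} (h : 500 ≤ m) : aa m ≤ 1 / 1000 := by
  have : (500 : ℝ) ≤ m := by exact_mod_cast h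
  unfold aa
  exact one_div_le_one_div_of_le (by norm_num) (by linarith)

theorem b_aa_mul {m : ℕ} (h : 500 ≤ m) : 2 * m * aa m = 1 := by
  have : (500 : ℝ) ≤ m := by exact_mod_cast h
  unfold aa; field_simp

theorem b_aa_small {η : ℝ} (hη : 0 < η) : ∃ m0 : ℕ, 500 ≤ m0 ∧ ∀ m, m0 ≤ m → aa m ≤ η := by
  obtain ⟨n, hn⟩ := exists_nat_ge (1 / η)
  refine ⟨max 500 n, le_max_left _ _, fun m hm => ?_⟩
  have h1 : (500 : ℝ) ≤ m := by exact_mod_cast (le_max_left _ _).trans hm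
  have h2 : (n : ℝ) ≤ m := by exact_mod_cast (le_max_right _ _).trans hm
  unfold aa
  rw [div_le_iff₀ hη] at hn
  rw [div_le_iff₀ (by positivity)]
  nlinarith

theorem b_β_bd {β : ℝ} (h : β ∈ Icc βlo βhi) : 1 / 3 ≤ β ∧ β ≤ 7 / 20 := by
  obtain ⟨h1, h2⟩ := h
  unfold βlo at h1; unfold βhi at h2
  constructor <;> linarith

end Vale.Agent.P139
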