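import Vale.Agent.P139.B.Ric
import Vale.Agent.P139.B.Bar

/-! P139 B/Esc: bounds for `h`, escape lemma, maximum principle.
Plan: `w = 1 + 2 ph`, `hh = X (1 - w²) / 4`. `b_h_up`: `b_w_lo` with `c = 1 - 4a` (`b_pow_lo`,
`β / 2 ≥ 1/6`), `normSq (q X) ≤ 1 + 6a` (`b_pow_up`), so `w ≥ 1 - 11 a`. `b_h_abs`: `b_w_lo` with
`c = 1 - η`, `b_w_up` with `c = 1`. `b_escape`: `b_bar` for `AA6 q` on `[X', 3]` (same sign as
`al` for `X > 0`; treat `X' = 0` by `b_bar` for `al` itself: if `T = 0` then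
`al 0 = (PK - β)/6 > 0`); at `T` with `al ≥ 0` on `[X', T]` the function `Pu` is monotone there
(`b_incr`, `b_Pu_deriv`), so `Pu T > β + 17 a`, `Pu ≥ β/2` on `[0, T]`; if `Pu T ≤ 4` use `b_h_up`,
else `PK = 4` and `b_h_quarter`; `b_AA_deriv`, `b_right_pos`. `b_max`: at a maximum point `X'` of
`Pu` on `[0, Y]` with `Pu X' > β + 17 a` one has `al X' ≥ 0` (`X' = 0`: `b_al_zero`; `X' > 0`:
`b_left_pos`), and `b_escape` contradicts `Pu Y ≤ β / 2`. -/

noncomputable section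

open MeasureTheory Filter Topology Set Complex
open scoped ComplexConjugate ContDiff

namespace Vale.Agent.P139

variable {m : ℕ} {β X Y η : ℝ} {q : ℝ → ℂ}

theorem b_h_quarter (hX : 0 ≤ X) : hh q X ≤ X / 4 := by
  unfold hh
  nlinarith [mul_nonneg hX (sq_nonneg (ph q X + 1 / 2))]

theorem b_h_up (h : Std m β q) (hX : X ∈ Icc (0 : ℝ) 3) (h1 : ∀ s ∈ Icc 0 X, β / 2 ≤ Pu m q s)
    (h2 : Pu m q X ≤ 4) : hh q X ≤ 17 * aa m := by
  have a1 := b_aa_pos h.big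
  have a2 := b_aa_le h.big
  obtain ⟨b1, b2⟩ := b_β_bd h.β_mem
  have hc : ∀ s ∈ Icc 0 X, 1 - 4 * aa m ≤ normSq (q s) := fun s hs =>
    b_pow_lo h.big (normSq_nonneg _) (le_trans (by linarith) (h1 s hs))
  have h3 := b_w_lo h.isol hX.1 hc
  have h4 := b_pow_up h.big (normSq_nonneg _) h2
  have h5 := hc X ⟨hX.1, le_rfl⟩
  have h6 : -(11 / 2 * aa m) ≤ ph q X := by
    by_contra hn
    have h7 : (1 + 2 * ph q X) * normSq (q X) < (1 - 11 * aa m) * normSq (q X) :=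
      mul_lt_mul_of_pos_right (by linarith) (by linarith)
    have h8 : (1 - 11 * aa m) * normSq (q X) ≤ (1 - 11 * aa m) * (1 + 6 * aa m) :=
      mul_le_mul_of_nonneg_left h4 (by linarith)
    nlinarith
  have h7 : -ph q X * (1 + ph q X) ≤ 11 / 2 * aa m := by nlinarith [sq_nonneg (ph q X)]
  have h8 : X * (-ph q X * (1 + ph q X)) ≤ X * (11 / 2 * aa m) :=
    mul_le_mul_of_nonneg_left h7 hX.1
  have h9 : X * (11 / 2 * aa m) ≤ 3 * (11 / 2 * aa m) :=
    mul_le_mul_of_nonneg_right hX.2 (by linarith)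
  unfold hh
  linarith

theorem b_h_abs (h : Std m β q) (hX : X ∈ Icc (0 : ℝ) 3) (hη : η ≤ 1 / 4)
    (h1 : ∀ s ∈ Icc 0 X, 1 - η ≤ normSq (q s) ∧ normSq (q s) ≤ 1) :
    |ph q X| ≤ η + aa m ∧ |hh q X| ≤ 4 * (η + aa m) := by
  have a1 := b_aa_pos h.big
  have a2 := b_aa_le h.big
  obtain ⟨n1, n2⟩ := h1 X ⟨hX.1, le_rfl⟩
  have h3 := b_w_lo h.isol hX.1 fun s hs => (h1 s hs).1
  have h4 := b_w_up h.isol hX.1 fun s hs => (h1 s hs).2
  have h0 : 0 ≤ η := by linarith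
  have hw : 0 < 1 + 2 * ph q X := by
    refine (mul_pos_iff_of_pos_right (by linarith : 0 < normSq (q X))).1 ?_
    exact lt_of_lt_of_le (mul_pos (by linarith) (by linarith)) h3
  have h5 : (1 + 2 * ph q X) * normSq (q X) ≤ (1 + 2 * ph q X) * 1 :=
    mul_le_mul_of_nonneg_left n2 hw.le
  have h6 : (1 + 2 * ph q X) * (1 - η) ≤ (1 + 2 * ph q X) * normSq (q X) :=
    mul_le_mul_of_nonneg_left n1 hw.le
  have h7 : |ph q X| ≤ η + aa m := by
    refine abs_le.2 ⟨by nlinarith [mul_nonneg a1.le h0], ?_⟩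
    by_contra hn
    have h8 : (1 + 2 * η) * (1 - η) < (1 + 2 * ph q X) * (1 - η) :=
      mul_lt_mul_of_pos_right (by linarith) (by linarith)
    nlinarith
  refine ⟨h7, ?_⟩
  have h8 : |1 + ph q X| ≤ 4 / 3 := by
    obtain ⟨h9, h10⟩ := abs_le.1 h7
    exact abs_le.2 ⟨by linarith, by linarith⟩
  rw [hh, abs_mul, abs_mul, abs_neg, abs_of_nonneg hX.1]
  calc X * |ph q X| * |1 + ph q X| ≤ 3 * (η + aa m) * (4 / 3) :=
        mul_le_mul (mul_le_mul hX.2 h7 (abs_nonneg _) (by norm_num)) h8 (abs_nonneg _)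
          (by linarith)
    _ = 4 * (η + aa m) := by ring

theorem b_esc_mono (h : ISol m β q) {x0 x1 : ℝ} (h0 : 0 ≤ x0) (h01 : x0 ≤ x1)
    (h1 : ∀ X ∈ Icc x0 x1, 0 ≤ al q X) : Pu m q x0 ≤ Pu m q x1 := by
  have h2 := b_incr (f := fun _ => 0) h01 continuousOn_const (b_Pu_cont h).continuousOn
    fun X hX => ⟨0, _, hasDerivAt_const X 0, b_Pu_deriv h (h0.trans hX.1.le),
      mul_nonneg (mul_nonneg (by positivity) (h1 X (Ioo_subset_Icc_self hX)))
        (b_Pu_pos h (h0.trans hX.1.le)).le⟩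
  linarith

theorem b_escape {X' : ℝ} (h : Std m β q) (hX : X' ∈ Icc (0 : ℝ) 3)
    (h1 : ∀ s ∈ Icc 0 X', β / 2 ≤ Pu m q s) (h2 : β + 17 * aa m < Pu m q X')
    (h3 : 0 ≤ al q X') : ∀ X ∈ Icc X' 3, Pu m q X' ≤ Pu m q X := by
  have a1 := b_aa_pos h.big
  obtain ⟨b1, b2⟩ := b_β_bd h.β_mem
  have key : ∀ X ∈ Icc X' 3, 0 ≤ al q X := by
    refine b_bar ((b_al_cont h.isol).mono fun X hx => hX.1.trans hx.1) h3 fun T hT hp h0 => ?_
    have hT0 : 0 ≤ T := hX.1.trans hT.1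
    have m1 : ∀ s ∈ Icc X' T, Pu m q X' ≤ Pu m q s := fun s hs =>
      b_esc_mono h.isol hX.1 hs.1 fun X hx => hp X ⟨hx.1, hx.2.trans hs.2⟩
    have m2 := m1 T ⟨hT.1, le_rfl⟩
    have m3 : ∀ s ∈ Icc 0 T, β / 2 ≤ Pu m q s := fun s hs => by
      rcases le_total s X' with h4 | h4
      · exact h1 s ⟨hs.1, h4⟩
      · linarith [m1 s ⟨h4, hs.2⟩]
    rcases hT0.eq_or_lt with rfl | hT1
    · have h4 : β < PK m (q 0) := lt_min (by unfold Pu at m2 h2; linarith) (by linarith)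
      have h5 := b_al_zero h.isol
      exact absurd h0 (by linarith [h4, h5] : (0 : ℝ) < al q 0).ne'
    · have h4 : 0 < PK m (q T) - β - hh q T := by
        rcases le_total (Pu m q T) 4 with h5 | h5
        · have h6 := b_h_up h ⟨hT0, hT.2.le⟩ m3 h5
          have h7 : PK m (q T) = Pu m q T := b_PK_eq h5
          linarith
        · have h6 := b_h_quarter (q := q) hT0
          have h7 : PK m (q T) = 4 := min_eq_right h5
          linarith [hT.2]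
      have h5 := b_right_pos (b_AA_deriv h.isol hT1) (by
        rw [h0]
        exact mul_pos (pow_pos hT1 5) (by linarith))
      filter_upwards [h5, self_mem_nhdsWithin] with X h6 h7
      rw [AA6, AA6, h0, mul_zero] at h6
      exact ((mul_pos_iff_of_pos_left (pow_pos (hT1.trans h7) 6)).1 h6).le
  exact fun X hx => b_esc_mono h.isol hX.1 hx.1 fun s hs => key s ⟨hs.1, hs.2.trans hx.2⟩

theorem b_max (h : Cr m β q Y) : ∀ X ∈ Icc 0 Y, Pu m q X ≤ β + 17 * aa m := by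
  have hs := h.std
  have a1 := b_aa_pos hs.big
  obtain ⟨b1, b2⟩ := b_β_bd hs.β_mem
  obtain ⟨X', hX', hm⟩ := isCompact_Icc.exists_isMaxOn (nonempty_Icc.2 h.Y_mem.1)
    (b_Pu_cont hs.isol).continuousOn
  intro X hX
  refine le_trans (hm hX) (not_lt.1 fun h2 => ?_)
  have h3 : 0 ≤ al q X' := by
    rcases hX'.1.eq_or_lt with e | h0
    · subst e
      have h4 : β < PK m (q 0) := lt_min (by unfold Pu at h2; linarith) (by linarith)
      have h5 := b_al_zero hs.isol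
      linarith
    · by_contra hn
      have hm0 : (500 : ℝ) ≤ m := by exact_mod_cast hs.big
      have h4 := b_left_pos (b_Pu_deriv hs.isol h0.le)
        (mul_neg_of_neg_of_pos (mul_neg_of_pos_of_neg (by linarith) (not_le.1 hn))
          (b_Pu_pos hs.isol h0.le))
      obtain ⟨s, h5, h6⟩ := (h4.and (Ioo_mem_nhdsLT h0)).exists
      exact absurd (hm ⟨h6.1.le, h6.2.le.trans hX'.2⟩) (not_le.2 h5)
  have h4 := b_escape hs ⟨hX'.1, hX'.2.trans h.Y_mem.2⟩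
    (fun s hs' => h.ge s ⟨hs'.1, hs'.2.trans hX'.2⟩) h2 h3 Y ⟨hX'.2, h.Y_mem.2⟩
  linarith [h.le]

theorem b_cr_nsq (h : Cr m β q Y) :
    ∀ X ∈ Icc 0 Y, 1 - 4 * aa m ≤ normSq (q X) ∧ normSq (q X) ≤ 1 := by
  have hs := h.std
  have a2 := b_aa_le hs.big
  obtain ⟨b1, b2⟩ := b_β_bd hs.β_mem
  exact fun X hX => ⟨b_pow_lo hs.big (normSq_nonneg _) (le_trans (by linarith) (h.ge X hX)),
    b_pow_one hs.big (normSq_nonneg _) ((b_max h X hX).trans (by linarith))⟩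

theorem b_cr_h (h : Cr m β q Y) :
    ∀ X ∈ Icc 0 Y, |ph q X| ≤ 5 * aa m ∧ |hh q X| ≤ 20 * aa m := by
  intro X hX
  have a2 := b_aa_le h.std.big
  obtain ⟨h1, h2⟩ := b_h_abs (η := 4 * aa m) h.std ⟨hX.1, hX.2.trans h.Y_mem.2⟩ (by linarith)
    fun s hs => b_cr_nsq h s ⟨hs.1, hs.2.trans hX.2⟩
  exact ⟨by linarith, by linarith⟩

end Vale.Agent.P139
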