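import Vale.Agent.P139.B.MisA
import Vale.Agent.P139.B2.Main

/-! P139 part B: adapter to the exterior analysis (part B2). -/

noncomputable section

open MeasureTheory Filter Topology Set Complex
open scoped ComplexConjugate ContDiff

namespace Vale.Agent.P139

theorem b_ext : ∃ C K : ℝ, 0 < C ∧ 0 < K ∧ ∀ κ : ℝ, 0 < κ → ∀ ε : ℝ, 0 < ε → ∃ m0 : ℕ,
    ∀ m : ℕ, m0 ≤ m → ∀ (S : Set (ℝ × ℝ)) (β X0 : ℝ × ℝ → ℝ) (q : ℝ × ℝ → ℝ → ℂ),
      ContinuousOn β S → ContinuousOn X0 S →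
      Continuous (fun y : (ℝ × ℝ) × ℝ => q y.1 y.2) →
      Continuous (fun y : (ℝ × ℝ) × ℝ => deriv (q y.1) y.2) →
      (∀ p ∈ S, Adm m (β p) (q p) (X0 p) κ) →
      ∃ M : ℝ × ℝ → ℂ, ContinuousOn M S ∧ ∀ p ∈ S,
        ‖M p - Mis (X0 p) (β p)‖ ≤ K * ‖deriv (q p) (X0 p) / q p (X0 p)‖ + ε ∧
        (M p = 0 → ExtGood m (β p) (q p) (X0 p) ε C) := by
  obtain ⟨C, hC, H⟩ := b2_all
  obtain ⟨K, hK, HK⟩ := b_mis_close
  refine ⟨C, K, hC, hK, fun κ hκ ε hε => ?_⟩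
  obtain ⟨m1, H1⟩ := H κ hκ (ε / 4) (by positivity)
  obtain ⟨m2, -, H2⟩ := b_aa_small (show 0 < ε / (2 * K) by positivity)
  refine ⟨max m1 m2, fun m hm S β X0 q hβ hX hq hq' hA => ?_⟩
  obtain ⟨M, cM, HM⟩ := H1 m ((le_max_left _ _).trans hm) S β X0 q hβ hX hq hq' hA
  have hne : ∀ p ∈ S, q p (X0 p) ≠ 0 := fun p hp h => by
    have := (hA p hp).low
    rw [h, norm_zero] at this
    norm_num at this
  refine ⟨fun p => M p / q p (X0 p),
    cM.div (hq.comp_continuousOn (continuousOn_id.prodMk hX)) hne, fun p hp => ⟨?_, fun h0 => ?_⟩⟩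
  · have A := hA p hp
    have g1 := (HM p hp).1
    have g2 := HK m (β p) (X0 p) (q p) A.β_mem A.X0_mem (hne p hp)
    have g3 := H2 m ((le_max_right _ _).trans hm)
    rw [le_div_iff₀ (by positivity)] at g3
    have g4 : ‖M p / q p (X0 p) - mis0 m (β p) (q p) (X0 p) / q p (X0 p)‖ ≤ ε / 2 := by
      rw [← sub_div, norm_div, div_le_iff₀ (norm_pos_iff.2 (hne p hp))]
      have := A.low
      nlinarith
    calc _ ≤ ‖M p / q p (X0 p) - mis0 m (β p) (q p) (X0 p) / q p (X0 p)‖ +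
          ‖mis0 m (β p) (q p) (X0 p) / q p (X0 p) - Mis (X0 p) (β p)‖ :=
          norm_sub_le_norm_sub_add_norm_sub _ _ _
      _ ≤ _ := by nlinarith
  · have h1 : M p = 0 := by
      rcases div_eq_zero_iff.1 h0 with h | h
      · exact h
      · exact absurd h (hne p hp)
    obtain ⟨g0, g1, g2, g3, g4, g5⟩ := (HM p hp).2 h1
    exact ⟨g0, g1, g2, fun j hj X hX => ⟨(g3 j hj X hX).1.trans (by linarith),
      (g3 j hj X hX).2.trans (by linarith)⟩, g4, g5⟩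

end Vale.Agent.P139
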