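import Vale.Agent.P139.B.Int

/-! P139 B/Flux: the flux identity and its consequences.
Plan: `b_flux_deriv`: write everything with `re`, `im` of `q X`, `q' X` (`HasDerivAt.normSq`-like:
`normSq z = (z * conj z).re`, `HasDerivAt.star`, `reCLM.hasFDerivAt.comp_hasDerivAt`), the
potential `PK` is real. `Fl` is continuous on `ℝ` and `Fl 0 = 0`.
`b_flux_lo/up`: `Fl X - (1 - a/3) c X^6` has derivative `(6 - 2a) X^5 (normSq q - c)`;
`monotoneOn_of_deriv_nonneg`/`monotoneOn_of_hasDerivWithinAt_nonneg` on `Icc 0 X`; `0 ≤ a ≤ 1/2`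
for all `m` (`aa 0 = 0`). `b_ne`: `normSq q ≥ c > 0` on some `[0, X₁]`, so `Fl X₁ > 0`, and `Fl` is
monotone on `[0, ∞)`; `q X = 0` gives `Fl X = 0`. `b_w_eq`:
`(q' / q).im * normSq q = (q' * conj q).im`. `b_w_lo/up`: divide by `X^6` for `X > 0`; for `X = 0`
`ph q 0 = -a / 6` by `b_deriv_zero`. -/

noncomputable section

open MeasureTheory Filter Topology Set Complex
open scoped ComplexConjugate ContDiff

namespace Vale.Agent.P139

/-- the flux -/
def Fl (q : ℝ → ℂ) (X : ℝ) : ℝ := X ^ 6 * (normSq (q X) + 2 * (deriv q X * conj (q X)).im)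

variable {m : ℕ} {β X c : ℝ} {q : ℝ → ℂ}

theorem b_flux_aa (m : ℕ) : 0 ≤ aa m ∧ aa m ≤ 1 / 2 := by
  unfold aa
  refine ⟨by positivity, ?_⟩
  rcases Nat.eq_zero_or_pos m with rfl | h
  · simp
  · have : (1 : ℝ) ≤ m := by exact_mod_cast h
    exact one_div_le_one_div_of_le two_pos (by linarith)

theorem b_flux_eq (q : ℝ → ℂ) : Fl q = fun X => X ^ 6 * ((q X).re * (q X).re + (q X).im * (q X).im +
    2 * ((deriv q X).im * (q X).re - (deriv q X).re * (q X).im)) := by
  funext X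
  simp only [Fl, normSq_apply, mul_im, conj_re, conj_im]
  ring

theorem b_flux_deriv (h : Sol m β q) (hX : 0 < X) :
    HasDerivAt (Fl q) ((6 - 2 * aa m) * X ^ 5 * normSq (q X)) X := by
  have d1 := (h.d1 X).hasDerivAt
  have d2 := h.d2 X hX
  have u1 : HasDerivAt (fun Y => (q Y).re) (deriv q X).re X :=
    reCLM.hasFDerivAt.comp_hasDerivAt X d1
  have v1 : HasDerivAt (fun Y => (q Y).im) (deriv q X).im X :=
    imCLM.hasFDerivAt.comp_hasDerivAt X d1
  have u2 : HasDerivAt (fun Y => (deriv q Y).re)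
      ((FK m β (q X) - (6 + I * X) * deriv q X) / X).re X :=
    reCLM.hasFDerivAt.comp_hasDerivAt X d2
  have v2 : HasDerivAt (fun Y => (deriv q Y).im)
      ((FK m β (q X) - (6 + I * X) * deriv q X) / X).im X :=
    imCLM.hasFDerivAt.comp_hasDerivAt X d2
  rw [b_flux_eq]
  refine ((hasDerivAt_pow 6 X).mul (((u1.mul u1).add (v1.mul v1)).add
    (((v2.mul u1).sub (u2.mul v1)).const_mul 2))).congr_deriv ?_
  simp only [div_ofReal_re, div_ofReal_im, FK, normSq_apply, Pi.add_apply, Pi.mul_apply,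
    Pi.sub_apply, sub_re, sub_im, mul_re, mul_im, add_re, add_im, ofReal_re, ofReal_im, I_re, I_im,
    re_ofNat, im_ofNat]
  field_simp
  push_cast
  ring

theorem b_flux_cont (h : Sol m β q) : Continuous (Fl q) := by
  have c0 := h.d1.continuous
  have c1 := h.c1
  rw [b_flux_eq]
  fun_prop

theorem b_flux_mono (h : Sol m β q) (hX : 0 ≤ X) (e : ℝ)
    (hc : ∀ s ∈ Icc 0 X, 0 ≤ e * (normSq (q s) - c)) :
    0 ≤ e * (Fl q X - (1 - aa m / 3) * c * X ^ 6) := by
  have ha := b_flux_aa m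
  have c0 := b_flux_cont h
  have h3 : MonotoneOn (fun s => e * (Fl q s - (1 - aa m / 3) * c * s ^ 6)) (Icc 0 X) :=
    monotoneOn_of_hasDerivWithinAt_nonneg (convex_Icc 0 X) (by fun_prop)
      (f' := fun s => (6 - 2 * aa m) * s ^ 5 * (e * (normSq (q s) - c)))
      (fun s hs => by
        rw [interior_Icc] at hs
        refine (HasDerivAt.congr_deriv (((b_flux_deriv h hs.1).sub
          ((hasDerivAt_pow 6 s).const_mul ((1 - aa m / 3) * c))).const_mul e) ?_).hasDerivWithinAt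
        push_cast
        ring)
      fun s hs => by
        rw [interior_Icc] at hs
        exact mul_nonneg (mul_nonneg (by linarith) (pow_nonneg hs.1.le _)) (hc s ⟨hs.1.le, hs.2.le⟩)
  simpa [Fl] using h3 ⟨le_rfl, hX⟩ ⟨hX, le_rfl⟩ hX

theorem b_flux_lo (h : Sol m β q) (hX : 0 ≤ X) (hc : ∀ s ∈ Icc 0 X, c ≤ normSq (q s)) :
    (1 - aa m / 3) * c * X ^ 6 ≤ Fl q X := by
  have := b_flux_mono h hX 1 (c := c) (fun s hs => by linarith [hc s hs])
  linarith

theorem b_flux_up (h : Sol m β q) (hX : 0 ≤ X) (hc : ∀ s ∈ Icc 0 X, normSq (q s) ≤ c) :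
    Fl q X ≤ (1 - aa m / 3) * c * X ^ 6 := by
  have := b_flux_mono h hX (-1) (c := c) (fun s hs => by linarith [hc s hs])
  linarith

theorem b_ne (h : ISol m β q) (hX : 0 ≤ X) : q X ≠ 0 := by
  intro h0
  rcases hX.eq_or_lt with rfl | hX0
  · exact h.ne0 h0
  have hp : 0 < normSq (q 0) := normSq_pos.2 h.ne0
  have hc : Continuous fun s => normSq (q s) := continuous_normSq.comp h.sol.d1.continuous
  obtain ⟨δ, hδ, hb⟩ := Metric.eventually_nhds_iff.1
    (hc.continuousAt.eventually (lt_mem_nhds (half_lt_self hp)))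
  have h1 : 0 < min (δ / 2) X := lt_min (half_pos hδ) hX0
  have h2 := b_flux_lo h.sol h1.le (c := normSq (q 0) / 2) fun s hs => (hb (by
    rw [Real.dist_eq, sub_zero, abs_of_nonneg hs.1]
    linarith [hs.2.trans (min_le_left _ _)])).le
  have ha := b_flux_aa m
  have h3 : MonotoneOn (Fl q) (Icc 0 X) := monotoneOn_of_hasDerivWithinAt_nonneg (convex_Icc 0 X)
    (b_flux_cont h.sol).continuousOn
    (fun s hs => (b_flux_deriv h.sol (by rw [interior_Icc] at hs; exact hs.1)).hasDerivWithinAt)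
    fun s hs => by
      rw [interior_Icc] at hs
      exact mul_nonneg (mul_nonneg (by linarith) (pow_nonneg hs.1.le _)) (normSq_nonneg _)
  have h4 := h3 ⟨h1.le, min_le_right _ _⟩ ⟨hX, le_rfl⟩ (min_le_right _ _)
  have h5 : Fl q X = 0 := by simp [Fl, h0]
  have h6 : 0 < (1 - aa m / 3) * (normSq (q 0) / 2) * min (δ / 2) X ^ 6 :=
    mul_pos (mul_pos (by linarith) (half_pos hp)) (pow_pos h1 _)
  linarith

theorem b_w_eq (h : q X ≠ 0) : Fl q X = X ^ 6 * ((1 + 2 * ph q X) * normSq (q X)) := by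
  have h1 := (normSq_pos.2 h).ne'
  simp only [Fl, ph, div_im, mul_im, conj_re, conj_im]
  field_simp
  ring

theorem b_flux_zero (h : ISol m β q) : 1 + 2 * ph q 0 = 1 - aa m / 3 := by
  have e : deriv q 0 / q 0 = ((PK m (q 0) : ℂ) - β - I * aa m) / (6 : ℝ) := by
    rw [b_deriv_zero h, FK]
    have := h.ne0
    push_cast
    field_simp
  rw [ph, e, div_ofReal_im]
  simp
  ring

theorem b_w_lo (h : ISol m β q) (hX : 0 ≤ X) (hc : ∀ s ∈ Icc 0 X, c ≤ normSq (q s)) :
    (1 - aa m / 3) * c ≤ (1 + 2 * ph q X) * normSq (q X) := by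
  rcases hX.eq_or_lt with rfl | hX0
  · rw [b_flux_zero h]
    exact mul_le_mul_of_nonneg_left (hc 0 ⟨le_rfl, le_rfl⟩) (by linarith [(b_flux_aa m).2])
  · have := b_flux_lo h.sol hX hc
    rw [b_w_eq (b_ne h hX), mul_comm] at this
    exact le_of_mul_le_mul_left this (pow_pos hX0 6)

theorem b_w_up (h : ISol m β q) (hX : 0 ≤ X) (hc : ∀ s ∈ Icc 0 X, normSq (q s) ≤ c) :
    (1 + 2 * ph q X) * normSq (q X) ≤ (1 - aa m / 3) * c := by
  rcases hX.eq_or_lt with rfl | hX0
  · rw [b_flux_zero h]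
    exact mul_le_mul_of_nonneg_left (hc 0 ⟨le_rfl, le_rfl⟩) (by linarith [(b_flux_aa m).2])
  · have := b_flux_up h.sol hX hc
    rw [b_w_eq (b_ne h hX), mul_comm _ (X ^ 6)] at this
    exact le_of_mul_le_mul_left this (pow_pos hX0 6)

end Vale.Agent.P139
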