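import Vale.Agent.P139.B.Pic

/-! P139 B/Int: from the integral equation to the differential equation.
Plan: `b_KK_eq`: substitution `s = t X` (`intervalIntegral.integral_comp_mul_right` or
`mul_integral_comp_mul_right`). `b_isol`: `q' = KK` by the fundamental theorem of calculus
(`intervalIntegral.integral_hasDerivAt_right`, `b_KK_cont1`); for `X > 0`,
`KK X = X^(-6) exp (-I X) ∫₀^X s^5 exp (I s) F (q s)` on a neighbourhood of `X`, differentiate.
`b_family`: `b_pic` with `P = ℝ × ℝ`, `ρ = p.1`, `β p = max βlo (min p.2 βhi)`; `b_KK_cont`. -/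

noncomputable section

open MeasureTheory Filter Topology Set Complex
open scoped ComplexConjugate ContDiff

namespace Vale.Agent.P139

theorem b_KK_eq (m : ℕ) (β : ℝ) {q : ℝ → ℂ} (hq : Continuous q) {X : ℝ} (hX : 0 < X) :
    (X : ℂ) ^ 6 * exp (I * X) * KK m β q X =
      ∫ s in (0 : ℝ)..X, (s : ℂ) ^ 5 * exp (I * s) * FK m β (q s) := by
  have h := intervalIntegral.smul_integral_comp_mul_right (a := 0) (b := 1)
    (fun s : ℝ => (s : ℂ) ^ 5 * exp (I * s) * FK m β (q s)) X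
  rw [zero_mul, one_mul] at h
  rw [← h, KK, ← intervalIntegral.integral_const_mul, ← intervalIntegral.integral_smul]
  refine intervalIntegral.integral_congr fun t _ => ?_
  have e : exp (I * X) * exp (I * ((t - 1) * X : ℝ)) = exp (I * (t * X : ℝ)) := by
    rw [← exp_add]; congr 1; push_cast; ring
  simp only [real_smul]
  rw [← e]
  push_cast
  ring

theorem b_isol {m : ℕ} {β ρ : ℝ} {q : ℝ → ℂ} (hq : Continuous q)
    (h : ∀ X, q X = ρ + ∫ Y in (0 : ℝ)..X, KK m β q Y) :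
    Sol m β q ∧ (∀ X, deriv q X = KK m β q X) ∧ q 0 = ρ := by
  have hK := b_KK_cont1 m β hq
  have h1 : ∀ X, HasDerivAt q (KK m β q X) X := fun X => by
    have := (hK.integral_hasStrictDerivAt 0 X).hasDerivAt.const_add (ρ : ℂ)
    rwa [← funext h] at this
  have h2 : deriv q = KK m β q := funext fun X => (h1 X).deriv
  refine ⟨⟨fun X => (h1 X).differentiableAt, h2 ▸ hK, fun X hX => ?_⟩, fun X => by rw [h2],
    by simpa using h 0⟩
  have hF : Continuous fun s : ℝ => (s : ℂ) ^ 5 * exp (I * s) * FK m β (q s) := by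
    have : Continuous fun s : ℝ => FK m β (q s) :=
      (b_FK_cont m).comp (f := fun s : ℝ => (β, q s)) (by fun_prop)
    fun_prop
  have hX' : (X : ℂ) ≠ 0 := by exact_mod_cast hX.ne'
  have d1 := (hF.integral_hasStrictDerivAt 0 X).hasDerivAt
  have d0 : HasDerivAt (fun Y : ℝ => (Y : ℂ)) 1 X := ofRealCLM.hasDerivAt
  have d2 : HasDerivAt (fun Y : ℝ => (Y : ℂ) ^ 6 * exp (I * Y))
      (6 * (X : ℂ) ^ 5 * exp (I * X) + X ^ 6 * (exp (I * X) * I)) X := by
    refine ((d0.pow 6).mul (d0.const_mul I).cexp).congr_deriv ?_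
    simp
  have hne : (X : ℂ) ^ 6 * exp (I * X) ≠ 0 := mul_ne_zero (pow_ne_zero _ hX') (exp_ne_zero _)
  have d3 := d1.div d2 hne
  have e : KK m β q =ᶠ[𝓝 X] fun Y : ℝ => (∫ s in (0 : ℝ)..Y,
      (s : ℂ) ^ 5 * exp (I * s) * FK m β (q s)) / ((Y : ℂ) ^ 6 * exp (I * Y)) := by
    filter_upwards [lt_mem_nhds hX] with Y hY
    have hY' : (Y : ℂ) ≠ 0 := by exact_mod_cast hY.ne'
    rw [← b_KK_eq m β hq hY]
    field_simp
  rw [h2]
  refine (d3.congr_of_eventuallyEq e).congr_deriv ?_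
  rw [← b_KK_eq m β hq hX]
  field_simp

theorem b_deriv_zero {m : ℕ} {β : ℝ} {q : ℝ → ℂ} (h : ISol m β q) :
    deriv q 0 = FK m β (q 0) / 6 := by
  rw [h.int, KK]
  simp only [mul_zero, ofReal_zero, exp_zero, mul_one]
  rw [intervalIntegral.integral_mul_const]
  have : ∫ t in (0 : ℝ)..1, (t : ℂ) ^ 5 = ((∫ t in (0 : ℝ)..1, t ^ 5 : ℝ) : ℂ) := by
    rw [← intervalIntegral.integral_ofReal]; simp
  rw [this, integral_pow]
  push_cast
  ring

theorem b_family (m : ℕ) : ∃ q : ℝ × ℝ → ℝ → ℂ,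
    (Continuous fun y : (ℝ × ℝ) × ℝ => q y.1 y.2) ∧
    (Continuous fun y : (ℝ × ℝ) × ℝ => deriv (q y.1) y.2) ∧
    ∀ p : ℝ × ℝ, p.1 ≠ 0 → p.2 ∈ Icc βlo βhi → ISol m p.2 (q p) ∧ q p 0 = p.1 := by
  have hb : Continuous fun p : ℝ × ℝ => max βlo (min p.2 βhi) := by fun_prop
  obtain ⟨q, hq, H⟩ := b_pic (P := ℝ × ℝ) m (ρ := fun p => p.1) continuous_fst hb fun p => by
    have h1 : βlo ≤ βhi := by unfold βlo βhi; norm_num
    have := b_β_bd (β := max βlo (min p.2 βhi)) ⟨le_max_left _ _, max_le h1 (min_le_right _ _)⟩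
    exact abs_le.2 ⟨by linarith [this.1], by linarith [this.2]⟩
  have hq1 : ∀ p, Continuous (q p) := fun p => hq.comp (continuous_const.prodMk continuous_id)
  refine ⟨q, hq, ?_, fun p h1 h2 => ?_⟩
  · have := b_KK_cont m hb hq
    refine this.congr fun y => ((b_isol (hq1 y.1) (H y.1)).2.1 y.2).symm
  · obtain ⟨g1, g2, g3⟩ := b_isol (hq1 p) (H p)
    rw [min_eq_left h2.2, max_eq_right h2.1] at g1 g2
    exact ⟨⟨g1, g2, by rw [g3]; exact_mod_cast h1⟩, g3⟩

end Vale.Agent.P139
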