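import Vale.Agent.P139.B.Def1

/-! P139 B/Lip: the cut-off nonlinearity is globally Lipschitz.
Plan: `PK m z = g ‖z‖` with `g s = min (s^(2m)) 4 = (min s R)^(2m)`, `R = 4^(1/(2m)) ≤ 4` for `m ≥ 1`
(for `m = 0`, `PK = 1`); or directly: for `0 ≤ s ≤ t`, `g t - g s ≤ L (t - s)`
(`abs_pow_sub_pow_le` on `[0, 4]`, `g` is constant equal to `4` on `[4, ∞)` when `m ≥ 1`). For
`‖w‖ ≤ ‖z‖`: `P z * z - P w * w = P z * (z - w) + (P z - P w) * w` and either `‖w‖ ≥ 4` (then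
`P z = P w`) or `‖w‖ ≤ 4`. Symmetric case by swapping. -/

noncomputable section

open MeasureTheory Filter Topology Set Complex
open scoped ComplexConjugate ContDiff

namespace Vale.Agent.P139

theorem b_PK_nonneg (m : ℕ) (z : ℂ) : 0 ≤ PK m z :=
  le_min (pow_nonneg (normSq_nonneg z) m) (by norm_num)

theorem b_PK_le (m : ℕ) (z : ℂ) : PK m z ≤ 4 := min_le_right _ _

theorem b_PK_eq {m : ℕ} {z : ℂ} (h : normSq z ^ m ≤ 4) : PK m z = normSq z ^ m := min_eq_left h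

theorem b_lip_cont (m : ℕ) : Continuous (PK m) :=
  (continuous_normSq.pow m).min continuous_const

theorem b_FK_cont (m : ℕ) : Continuous fun y : ℝ × ℂ => FK m y.1 y.2 := by
  have h := b_lip_cont m
  unfold FK
  fun_prop

theorem b_FK_zero (m : ℕ) (β : ℝ) : FK m β 0 = 0 := by simp [FK]

theorem b_FK_sub (m : ℕ) (β β' : ℝ) (z : ℂ) : ‖FK m β z - FK m β' z‖ = |β - β'| * ‖z‖ := by
  have : FK m β z - FK m β' z = ((β' - β : ℝ) : ℂ) * z := by unfold FK; push_cast; ring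
  rw [this, norm_mul, norm_real, Real.norm_eq_abs, abs_sub_comm]

theorem b_lip_clamp (m : ℕ) (z : ℂ) : PK m z = min (min ‖z‖ 2 ^ (2 * m)) 4 := by
  unfold PK
  rw [normSq_eq_norm_sq, ← pow_mul]
  rcases le_total ‖z‖ 2 with h | h
  · rw [min_eq_left h]
  · rw [min_eq_right h]
    rcases Nat.eq_zero_or_pos m with rfl | hm
    · simp
    · have h1 : (4 : ℝ) ≤ 2 ^ (2 * m) := by
        calc (4 : ℝ) = 2 ^ 2 := by norm_num
          _ ≤ 2 ^ (2 * m) := pow_le_pow_right₀ (by norm_num) (by omega)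
      have h2 : (2 : ℝ) ^ (2 * m) ≤ ‖z‖ ^ (2 * m) := pow_le_pow_left₀ (by norm_num) h _
      rw [min_eq_right h1, min_eq_right (h1.trans h2)]

theorem b_lip_PK (m : ℕ) (z w : ℂ) :
    |PK m z - PK m w| ≤ 2 * m * 2 ^ (2 * m - 1) * |min ‖z‖ 2 - min ‖w‖ 2| := by
  rw [b_lip_clamp, b_lip_clamp]
  refine (abs_min_sub_min_le_max _ _ _ _).trans ?_
  rw [sub_self, abs_zero, max_eq_left (abs_nonneg _)]
  refine (abs_pow_sub_pow_le _ _ _).trans ?_
  have h1 : max |min ‖z‖ 2| |min ‖w‖ 2| ≤ 2 :=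
    max_le (by rw [abs_of_nonneg (by positivity)]; exact min_le_right _ _)
      (by rw [abs_of_nonneg (by positivity)]; exact min_le_right _ _)
  have h2 := pow_le_pow_left₀ (by positivity) h1 (2 * m - 1)
  push_cast
  calc _ ≤ |min ‖z‖ 2 - min ‖w‖ 2| * (2 * m) * 2 ^ (2 * m - 1) := by gcongr
    _ = _ := by ring

theorem b_lip_half (m : ℕ) {z w : ℂ} (h : ‖w‖ ≤ ‖z‖) :
    ‖(PK m z : ℂ) * z - PK m w * w‖ ≤ (4 + 4 * m * 2 ^ (2 * m - 1)) * ‖z - w‖ := by
  have e : (PK m z : ℂ) * z - PK m w * w = PK m z * (z - w) + ((PK m z - PK m w : ℝ) : ℂ) * w := by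
    push_cast; ring
  have h1 : ‖(PK m z : ℂ) * (z - w)‖ ≤ 4 * ‖z - w‖ := by
    rw [norm_mul, norm_real, Real.norm_eq_abs, abs_of_nonneg (b_PK_nonneg m z)]
    exact mul_le_mul_of_nonneg_right (b_PK_le m z) (norm_nonneg _)
  have h2 : ‖((PK m z - PK m w : ℝ) : ℂ) * w‖ ≤ 4 * m * 2 ^ (2 * m - 1) * ‖z - w‖ := by
    rw [norm_mul, norm_real, Real.norm_eq_abs]
    have h3 := b_lip_PK m z w
    rcases le_total ‖w‖ 2 with h4 | h4
    · have h5 : |min ‖z‖ 2 - min ‖w‖ 2| ≤ ‖z - w‖ := by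
        refine (abs_min_sub_min_le_max _ _ _ _).trans ?_
        rw [sub_self, abs_zero, max_eq_left (abs_nonneg _)]
        exact abs_norm_sub_norm_le z w
      calc _ ≤ 2 * m * 2 ^ (2 * m - 1) * ‖z - w‖ * 2 := by
            gcongr
            exact h3.trans (by gcongr)
        _ = _ := by ring
    · rw [min_eq_right h4, min_eq_right (h4.trans h), sub_self, abs_zero, mul_zero] at h3
      rw [le_antisymm h3 (abs_nonneg _), zero_mul]
      positivity
  rw [e]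
  refine (norm_add_le _ _).trans ?_
  linarith

theorem b_FK_lip (m : ℕ) : ∃ L : ℝ, 1 ≤ L ∧ ∀ β : ℝ, |β| ≤ 1 → ∀ z w : ℂ,
    ‖FK m β z - FK m β w‖ ≤ L * ‖z - w‖ := by
  have ha : 0 ≤ aa m := by unfold aa; positivity
  have hp : (0 : ℝ) ≤ 4 * m * 2 ^ (2 * m - 1) := by positivity
  refine ⟨4 + 4 * m * 2 ^ (2 * m - 1) + (1 + aa m), by linarith, fun β hβ z w => ?_⟩
  have e : FK m β z - FK m β w = ((PK m z : ℂ) * z - PK m w * w) - (β + I * aa m) * (z - w) := by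
    unfold FK; ring
  have h1 : ‖(PK m z : ℂ) * z - PK m w * w‖ ≤ (4 + 4 * m * 2 ^ (2 * m - 1)) * ‖z - w‖ := by
    rcases le_total ‖w‖ ‖z‖ with h | h
    · exact b_lip_half m h
    · rw [norm_sub_rev, norm_sub_rev z]; exact b_lip_half m h
  have h2 : ‖((β : ℂ) + I * aa m) * (z - w)‖ ≤ (1 + aa m) * ‖z - w‖ := by
    rw [norm_mul]
    gcongr
    refine (norm_add_le _ _).trans ?_
    rw [norm_mul, norm_I, one_mul, norm_real, norm_real, Real.norm_eq_abs, Real.norm_eq_abs,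
      abs_of_nonneg ha]
    linarith
  rw [e]
  refine (norm_sub_le _ _).trans ?_
  linarith

end Vale.Agent.P139
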