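import Vale.Agent.P139.B.Def1

/-! P139 B/MisA: the level zero mismatch is close to the limit mismatch.
Plan: `b_mis_cont`: `row_continuous` composed with `(X, β) ↦ (-I β - 5/2, X)`. `b_mis_unif`:
uniform continuity on the compact box (`IsCompact.uniformContinuousOn_of_continuous`).
`b_mis_close`: `mis0 / q X0 = r.1 + r.2 (X0 g + 5/2)`, `g = q' / q`, `r = row (ν₀ - 5/2)`,
`r₀ = row (-I β - 5/2)`, `‖r - r₀‖ ≤ C a` (`row_lip`), `‖r₀‖ ≤ B` on the compact box. -/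

noncomputable section

open MeasureTheory Filter Topology Set Complex
open scoped ComplexConjugate ContDiff

namespace Vale.Agent.P139

theorem b_misa_row :
    ContinuousOn (fun y : ℝ × ℝ => row (-I * y.2 - 5 / 2) (5 / 2) y.1) {y | 0 < y.1} := by
  have h := row_continuous (ℓ := 5 / 2) (by norm_num)
  have hc : Continuous fun y : ℝ × ℝ => ((-I * y.2 - 5 / 2 : ℂ), y.1) := by fun_prop
  have h2 : MapsTo (fun y : ℝ × ℝ => ((-I * y.2 - 5 / 2 : ℂ), y.1)) {y | 0 < y.1}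
      {p : ℂ × ℝ | -7 / 2 < p.1.re ∧ 0 < p.2} := fun y hy => ⟨by simp; norm_num, hy⟩
  have h3 := h.comp hc.continuousOn h2
  simpa only [Function.comp_def] using h3

theorem b_mis_cont : ContinuousOn (fun y : ℝ × ℝ => Mis y.1 y.2) {y | 0 < y.1} := by
  have h := b_misa_row
  unfold Mis
  exact h.fst.add (continuousOn_const.mul h.snd)

theorem b_misa_sub : Icc (2 : ℝ) 3 ×ˢ Icc βlo βhi ⊆ {y : ℝ × ℝ | 0 < y.1} := fun y hy => by
  have := hy.1.1
  show 0 < y.1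
  linarith

theorem b_mis_unif {η : ℝ} (hη : 0 < η) : ∃ τ > 0, ∀ X ∈ Icc (2 : ℝ) 3, ∀ X' ∈ Icc (2 : ℝ) 3,
    ∀ β ∈ Icc βlo βhi, |X - X'| ≤ τ → ‖Mis X β - Mis X' β‖ ≤ η := by
  have hK : IsCompact (Icc (2 : ℝ) 3 ×ˢ Icc βlo βhi) := isCompact_Icc.prod isCompact_Icc
  have h := hK.uniformContinuousOn_of_continuous (b_mis_cont.mono b_misa_sub)
  obtain ⟨δ, hδ, H⟩ := Metric.uniformContinuousOn_iff.1 h η hη
  refine ⟨δ / 2, by positivity, fun X hX X' hX' β hβ hd => ?_⟩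
  have := H (X, β) ⟨hX, hβ⟩ (X', β) ⟨hX', hβ⟩ (by
    rw [Prod.dist_eq, dist_self, Real.dist_eq]
    exact max_lt (by linarith) hδ)
  rw [dist_eq_norm] at this
  exact this.le

theorem b_misa_aa (m : ℕ) : 0 ≤ aa m ∧ aa m ≤ 1 / 2 := by
  unfold aa
  refine ⟨by positivity, ?_⟩
  rcases Nat.eq_zero_or_pos m with rfl | h
  · simp
  · have : (1 : ℝ) ≤ m := by exact_mod_cast h
    exact one_div_le_one_div_of_le (by norm_num) (by linarith)

theorem b_mis_close : ∃ K : ℝ, 0 < K ∧ ∀ (m : ℕ) (β X0 : ℝ) (q : ℝ → ℂ), β ∈ Icc βlo βhi →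
    X0 ∈ Icc (2 : ℝ) 3 → q X0 ≠ 0 →
      ‖mis0 m β q X0 / q X0 - Mis X0 β‖ ≤ K * (aa m + ‖deriv q X0 / q X0‖) := by
  have hK : IsCompact (Icc (2 : ℝ) 3 ×ˢ Icc βlo βhi) := isCompact_Icc.prod isCompact_Icc
  obtain ⟨B, hB⟩ := hK.exists_bound_of_continuousOn (b_misa_row.mono b_misa_sub)
  obtain ⟨C, hC⟩ := row_lip (ℓ := 5 / 2) (by norm_num) 4
  refine ⟨4 * |C| + 3 * |B| + 1, by positivity, fun m β X0 q hβ hX hq => ?_⟩
  obtain ⟨a0, a1⟩ := b_misa_aa m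
  obtain ⟨b0, b1⟩ := b_β_bd hβ
  have hn : ∀ x : ℝ, |x| ≤ 3 → ‖((x : ℂ) - I * β)‖ ≤ 4 := fun x hx => by
    refine (norm_sub_le _ _).trans ?_
    rw [norm_mul, norm_I, one_mul, norm_real, norm_real, Real.norm_eq_abs, Real.norm_eq_abs,
      abs_of_pos (by linarith : 0 < β)]
    linarith
  have e1 : nu0 m β - 5 / 2 = ((aa m - 5 / 2 : ℝ) : ℂ) - I * β := by
    unfold nu0; push_cast; ring
  have e2 : -I * β - 5 / 2 = ((-5 / 2 : ℝ) : ℂ) - I * β := by push_cast; ring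
  have h1 := hC (nu0 m β - 5 / 2) (-I * β - 5 / 2) (by rw [e1]; simp; linarith)
    (by rw [e2]; simp; norm_num) (by rw [e1]; exact hn _ (abs_le.2 ⟨by linarith, by linarith⟩))
    (by rw [e2]; exact hn _ (abs_le.2 ⟨by linarith, by linarith⟩)) X0 ⟨hX.1, by linarith [hX.2]⟩
  have e3 : ‖nu0 m β - 5 / 2 - (-I * β - 5 / 2)‖ = aa m := by
    have : nu0 m β - 5 / 2 - (-I * β - 5 / 2) = (aa m : ℂ) := by unfold nu0; ring
    rw [this, norm_real, Real.norm_eq_abs, abs_of_nonneg a0]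
  rw [e3] at h1
  have h2 := hB (X0, β) ⟨hX, hβ⟩
  simp only at h2
  set r := row (nu0 m β - 5 / 2) (5 / 2) X0 with hr
  set r0 := row (-I * β - 5 / 2) (5 / 2) X0 with hr0
  set g := deriv q X0 / q X0 with hg
  have e4 : mis0 m β q X0 / q X0 - Mis X0 β =
      (r - r0).1 + 5 / 2 * (r - r0).2 + ((r - r0).2 + r0.2) * X0 * g := by
    unfold mis0 Mis
    rw [← hr, ← hr0]
    simp only [Prod.fst_sub, Prod.snd_sub, hg]
    field_simp
    ring
  have h3 : ‖r - r0‖ ≤ |C| * aa m := h1.trans (mul_le_mul_of_nonneg_right (le_abs_self _) a0)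
  have h4 := (norm_fst_le (r - r0)).trans h3
  have h5 := (norm_snd_le (r - r0)).trans h3
  have h6 : ‖r0.2‖ ≤ |B| := (norm_snd_le r0).trans (h2.trans (le_abs_self _))
  have h7 : ‖((r - r0).2 + r0.2) * X0 * g‖ ≤ (|C| * aa m + |B|) * 3 * ‖g‖ := by
    rw [norm_mul, norm_mul, norm_real, Real.norm_eq_abs, abs_of_pos (by linarith [hX.1])]
    have k1 := (norm_add_le _ _).trans (add_le_add h5 h6)
    have k2 := hX.2
    have k3 : 0 ≤ X0 := by linarith [hX.1]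
    gcongr
  have h8 : ‖(5 / 2 : ℂ) * (r - r0).2‖ ≤ 5 / 2 * (|C| * aa m) := by
    rw [norm_mul]
    have : ‖(5 / 2 : ℂ)‖ = 5 / 2 := by simp
    rw [this]
    gcongr
  rw [e4]
  have h9 := norm_add₃_le (a := (r - r0).1) (b := 5 / 2 * (r - r0).2)
    (c := ((r - r0).2 + r0.2) * X0 * g)
  have p1 := abs_nonneg C
  have p2 := abs_nonneg B
  have p3 := norm_nonneg g
  have p4 : |C| * aa m * ‖g‖ ≤ |C| * (1 / 2) * ‖g‖ := by gcongr
  nlinarith [mul_nonneg p1 a0, mul_nonneg p2 a0, mul_nonneg p1 p3, mul_nonneg p2 p3]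

end Vale.Agent.P139
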