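import Vale.Agent.P139.B.PicA

/-! P139 B/Pic: global solution of the integral equation, continuous in the parameters.
Plan: `L` from `b_FK_lip`, `K = 2 L`. For `u : ℝ →ᵇ ℂ` put `q = exp (K |X|) u`, and
`T ρ β u = exp (-K |X|) (ρ + ∫₀^X KK m β q)`; it is bounded (`b_T_bd` with `r = 0`, `KK m β 0 = 0`
by `b_FK_zero`) and continuous (`intervalIntegral.continuous_primitive`,
`BoundedContinuousFunction.ofNormedAddCommGroup`), `T ρ β` is `ContractingWith (1/2)`
(`b_T_bd`, `β' = β`). With `u p = fixedPoint (T (ρ p) (β p))`: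
`dist (u p) (u p') ≤ 2 dist (T_p (u p')) (u p') ≤ 2 (|ρ p - ρ p'| + |β p - β p'| ‖u p'‖)`
(`ContractingWith.dist_fixedPoint_le`/`dist_le_of_fixedPoint`), so `u` is continuous
(squeeze), and `(p, X) ↦ u p X` is continuous (`BoundedContinuousFunction.continuous_eval`). -/

noncomputable section

open MeasureTheory Filter Topology Set Complex
open scoped ComplexConjugate ContDiff

namespace Vale.Agent.P139

open BoundedContinuousFunction in
/-- the function attached to a bounded function -/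
def b_pic_q (K : ℝ) (u : ℝ →ᵇ ℂ) (X : ℝ) : ℂ := (Real.exp (K * |X|) : ℂ) * u X

theorem b_pic_qc (K : ℝ) (u : BoundedContinuousFunction ℝ ℂ) : Continuous (b_pic_q K u) := by
  unfold b_pic_q; fun_prop

theorem b_pic_qb (K : ℝ) (u : BoundedContinuousFunction ℝ ℂ) (X : ℝ) :
    ‖b_pic_q K u X‖ ≤ ‖u‖ * Real.exp (K * |X|) := by
  unfold b_pic_q
  rw [norm_mul, norm_real, Real.norm_eq_abs, abs_of_pos (Real.exp_pos _), mul_comm]
  gcongr
  exact u.norm_coe_le_norm X

theorem b_pic_qd (K : ℝ) (u v : BoundedContinuousFunction ℝ ℂ) (X : ℝ) :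
    ‖b_pic_q K u X - b_pic_q K v X‖ ≤ ‖u - v‖ * Real.exp (K * |X|) := by
  have : b_pic_q K u X - b_pic_q K v X = b_pic_q K (u - v) X := by
    simp [b_pic_q, mul_sub]
  rw [this]; exact b_pic_qb K _ X

/-- the Picard map before bundling -/
def b_pic_f (m : ℕ) (K ρ β : ℝ) (u : BoundedContinuousFunction ℝ ℂ) (X : ℝ) : ℂ :=
  (Real.exp (-(K * |X|)) : ℂ) * (ρ + ∫ Y in (0 : ℝ)..X, KK m β (b_pic_q K u) Y)

theorem b_pic_fc (m : ℕ) (K ρ β : ℝ) (u : BoundedContinuousFunction ℝ ℂ) :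
    Continuous (b_pic_f m K ρ β u) := by
  have h := intervalIntegral.continuous_primitive (μ := volume)
    (fun a b => (b_KK_cont1 m β (b_pic_qc K u)).intervalIntegrable a b) 0
  unfold b_pic_f
  fun_prop

theorem b_pic_fd {m : ℕ} {L ρ ρ' β β' : ℝ} (hL : 1 ≤ L)
    (hF : ∀ z w : ℂ, ‖FK m β z - FK m β w‖ ≤ L * ‖z - w‖) (u v : BoundedContinuousFunction ℝ ℂ)
    (X : ℝ) : ‖b_pic_f m (2 * L) ρ β u X - b_pic_f m (2 * L) ρ' β' v X‖ ≤
      |ρ - ρ'| + (‖u - v‖ / 2 + |β - β'| * ‖v‖) := by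
  have h := b_T_bd (β' := β') (by linarith) (show 0 < 2 * L by linarith) hF (b_pic_qc _ u)
    (b_pic_qc _ v) (b_pic_qd _ u v) (b_pic_qb _ v) X
  set A := ∫ Y in (0 : ℝ)..X, KK m β (b_pic_q (2 * L) u) Y
  set B := ∫ Y in (0 : ℝ)..X, KK m β' (b_pic_q (2 * L) v) Y
  have e : b_pic_f m (2 * L) ρ β u X - b_pic_f m (2 * L) ρ' β' v X =
      (Real.exp (-(2 * L * |X|)) : ℂ) * (((ρ - ρ' : ℝ) : ℂ) + (A - B)) := by
    simp only [b_pic_f, A, B]; push_cast; ring
  have h1 : Real.exp (-(2 * L * |X|)) ≤ 1 := Real.exp_le_one_iff.2 (by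
    have := abs_nonneg X; nlinarith)
  have h2 : Real.exp (-(2 * L * |X|)) * Real.exp (2 * L * |X|) = 1 := by
    rw [← Real.exp_add]; simp
  have h3 : (L * ‖u - v‖ + |β - β'| * ‖v‖) / (2 * L) ≤ ‖u - v‖ / 2 + |β - β'| * ‖v‖ := by
    rw [div_le_iff₀ (by linarith)]
    have : 0 ≤ |β - β'| * ‖v‖ := by positivity
    nlinarith
  rw [e, norm_mul, norm_real, Real.norm_eq_abs, abs_of_pos (Real.exp_pos _)]
  have h4 := norm_add_le ((ρ - ρ' : ℝ) : ℂ) (A - B)
  rw [norm_real, Real.norm_eq_abs] at h4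
  have p := Real.exp_pos (-(2 * L * |X|))
  calc _ ≤ Real.exp (-(2 * L * |X|)) * (|ρ - ρ'| +
        (L * ‖u - v‖ + |β - β'| * ‖v‖) / (2 * L) * Real.exp (2 * L * |X|)) := by
        gcongr; linarith
    _ = Real.exp (-(2 * L * |X|)) * |ρ - ρ'| + (L * ‖u - v‖ + |β - β'| * ‖v‖) / (2 * L) *
        (Real.exp (-(2 * L * |X|)) * Real.exp (2 * L * |X|)) := by ring
    _ ≤ _ := by
        rw [h2, mul_one]
        exact add_le_add (mul_le_of_le_one_left (abs_nonneg _) h1) h3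

theorem b_pic_f0 (m : ℕ) (K β X : ℝ) : b_pic_f m K 0 β 0 X = 0 := by
  have : b_pic_q K 0 = fun _ => 0 := by funext X; simp [b_pic_q]
  simp [b_pic_f, this, KK, b_FK_zero]

theorem b_pic {P : Type} [TopologicalSpace P] (m : ℕ) {ρ β : P → ℝ} (hρ : Continuous ρ)
    (hβ : Continuous β) (hβ1 : ∀ p, |β p| ≤ 1) :
    ∃ q : P → ℝ → ℂ, (Continuous fun y : P × ℝ => q y.1 y.2) ∧
      ∀ p X, q p X = ρ p + ∫ Y in (0 : ℝ)..X, KK m (β p) (q p) Y := by
  obtain ⟨L, hL, hF⟩ := b_FK_lip m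
  let T : P → BoundedContinuousFunction ℝ ℂ → BoundedContinuousFunction ℝ ℂ := fun p u =>
    BoundedContinuousFunction.ofNormedAddCommGroup (b_pic_f m (2 * L) (ρ p) (β p) u)
      (b_pic_fc _ _ _ _ _) (|ρ p| + ‖u‖ / 2) fun X => by
        have := b_pic_fd (ρ := ρ p) (ρ' := 0) (β' := β p) hL (hF _ (hβ1 p)) u 0 X
        simpa [b_pic_f0] using this
  have hT : ∀ p u X, T p u X = b_pic_f m (2 * L) (ρ p) (β p) u X := fun _ _ _ => rfl
  have hd : ∀ p p' u v, dist (T p u) (T p' v) ≤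
      |ρ p - ρ p'| + (‖u - v‖ / 2 + |β p - β p'| * ‖v‖) := fun p p' u v => by
    refine (BoundedContinuousFunction.dist_le (by positivity)).2 fun X => ?_
    rw [dist_eq_norm, hT, hT]
    exact b_pic_fd hL (hF _ (hβ1 p)) u v X
  have hc : ∀ p, ContractingWith (1 / 2) (T p) := fun p => by
    refine ⟨by norm_num, LipschitzWith.of_dist_le_mul fun u v => ?_⟩
    have := hd p p u v
    rw [sub_self, sub_self, abs_zero, zero_mul, zero_add, add_zero, ← dist_eq_norm] at this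
    push_cast
    linarith
  let u : P → BoundedContinuousFunction ℝ ℂ := fun p => (hc p).fixedPoint
  have hu : ∀ p, T p (u p) = u p := fun p => (hc p).fixedPoint_isFixedPt
  have hdu : ∀ p p', dist (u p) (u p') ≤ 2 * (|ρ p - ρ p'| + |β p - β p'| * ‖u p'‖) :=
    fun p p' => by
      have := hd p p' (u p) (u p')
      rw [hu, hu, ← dist_eq_norm] at this
      linarith
  have cu : Continuous u := by
    refine continuous_iff_continuousAt.2 fun p' => tendsto_iff_dist_tendsto_zero.2 ?_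
    refine squeeze_zero (fun _ => dist_nonneg) (fun p => hdu p p') ?_
    have : Continuous fun p => 2 * (|ρ p - ρ p'| + |β p - β p'| * ‖u p'‖) := by fun_prop
    simpa using this.tendsto p'
  refine ⟨fun p => b_pic_q (2 * L) (u p), ?_, fun p X => ?_⟩
  · have h1 : Continuous fun y : P × ℝ => u y.1 y.2 :=
      (cu.comp continuous_fst).eval continuous_snd
    unfold b_pic_q
    fun_prop
  · have h1 := hT p (u p) X
    rw [hu] at h1
    show (Real.exp (2 * L * |X|) : ℂ) * u p X = _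
    rw [h1, b_pic_f, ← mul_assoc, ← ofReal_mul, ← Real.exp_add]
    simp

end Vale.Agent.P139
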