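import Vale.Agent.P139.B.Lip

/-! P139 B/PicA: weighted estimates for the Picard operator `q ↦ ∫₀^X KK m β q`.
Plan: `b_KK_cont`: `intervalIntegral.continuous_parametric_intervalIntegral_of_continuous'`.
`b_KK_bd`: the integrand of `KK m β q Y - KK m β' r Y` has norm at most
`L ‖q (tY) - r (tY)‖ + |β - β'| ‖r (tY)‖ ≤ (L D + |β - β'| E) exp (L |Y|)` for `t ∈ [0, 1]`
(`intervalIntegral.norm_integral_le_of_norm_le_const`); `|exp (I * real)| = 1`; here the factor
`t^5` is bounded by its integral `1/6`, or use `K = 2 L` and the crude bound `t^5 ≤ 1` as stated.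
`b_exp_int`: `|∫₀^X exp (K |Y|) dY| ≤ exp (K |X|) / K` (two cases `0 ≤ X`, `X ≤ 0`).
`b_T_bd`: combine with `intervalIntegral.norm_integral_le_abs_of_norm_le` (or
`norm_integral_le_abs_integral_norm`). -/

noncomputable section

open MeasureTheory Filter Topology Set Complex
open scoped ComplexConjugate ContDiff

namespace Vale.Agent.P139

theorem b_KK_cont {P : Type} [TopologicalSpace P] (m : ℕ) {β : P → ℝ} {q : P → ℝ → ℂ}
    (hβ : Continuous β) (hq : Continuous fun y : P × ℝ => q y.1 y.2) :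
    Continuous fun y : P × ℝ => KK m (β y.1) (q y.1) y.2 := by
  unfold KK
  refine intervalIntegral.continuous_parametric_intervalIntegral_of_continuous'
    (f := fun (y : P × ℝ) (t : ℝ) => (t : ℂ) ^ 5 * exp (I * ((t - 1) * y.2 : ℝ)) *
      FK m (β y.1) (q y.1 (t * y.2))) ?_ 0 1
  have h1 : Continuous fun z : (P × ℝ) × ℝ => q z.1.1 (z.2 * z.1.2) :=
    hq.comp (f := fun z : (P × ℝ) × ℝ => (z.1.1, z.2 * z.1.2)) (by fun_prop)
  have h2 : Continuous fun z : (P × ℝ) × ℝ => FK m (β z.1.1) (q z.1.1 (z.2 * z.1.2)) :=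
    (b_FK_cont m).comp (f := fun z : (P × ℝ) × ℝ => (β z.1.1, q z.1.1 (z.2 * z.1.2)))
      ((hβ.comp (by fun_prop)).prodMk h1)
  have h3 : Continuous fun z : (P × ℝ) × ℝ =>
      (z.2 : ℂ) ^ 5 * exp (I * ((z.2 - 1) * z.1.2 : ℝ)) := by fun_prop
  exact h3.mul h2

theorem b_KK_cont1 (m : ℕ) (β : ℝ) {q : ℝ → ℂ} (hq : Continuous q) : Continuous (KK m β q) :=
  (b_KK_cont (P := Unit) m (β := fun _ => β) (q := fun _ => q) continuous_const
    (hq.comp continuous_snd)).comp (f := fun Y : ℝ => (((), Y) : Unit × ℝ)) (by fun_prop)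

theorem b_pica_int (m : ℕ) (β Y : ℝ) {q : ℝ → ℂ} (hq : Continuous q) : IntervalIntegrable
    (fun t : ℝ => (t : ℂ) ^ 5 * exp (I * ((t - 1) * Y : ℝ)) * FK m β (q (t * Y))) volume 0 1 := by
  have h2 : Continuous fun t : ℝ => FK m β (q (t * Y)) :=
    (b_FK_cont m).comp (f := fun t : ℝ => (β, q (t * Y))) (by fun_prop)
  have h3 : Continuous fun t : ℝ => (t : ℂ) ^ 5 * exp (I * ((t - 1) * Y : ℝ)) := by fun_prop
  exact (h3.mul h2).intervalIntegrable _ _

theorem b_KK_bd {m : ℕ} {L K D E β β' : ℝ} {q r : ℝ → ℂ} (hL : 0 ≤ L) (hK : 0 ≤ K)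
    (hF : ∀ z w : ℂ, ‖FK m β z - FK m β w‖ ≤ L * ‖z - w‖) (hq : Continuous q) (hr : Continuous r)
    (hD : ∀ Y, ‖q Y - r Y‖ ≤ D * Real.exp (K * |Y|)) (hE : ∀ Y, ‖r Y‖ ≤ E * Real.exp (K * |Y|))
    (Y : ℝ) : ‖KK m β q Y - KK m β' r Y‖ ≤ (L * D + |β - β'| * E) * Real.exp (K * |Y|) := by
  have hD0 : 0 ≤ D := by simpa using (norm_nonneg _).trans (hD 0)
  have hE0 : 0 ≤ E := by simpa using (norm_nonneg _).trans (hE 0)
  unfold KK
  rw [← intervalIntegral.integral_sub (b_pica_int m β Y hq) (b_pica_int m β' Y hr)]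
  refine (intervalIntegral.norm_integral_le_of_norm_le_const
    (C := (L * D + |β - β'| * E) * Real.exp (K * |Y|)) fun t ht => ?_).trans (by simp)
  rw [uIoc_of_le zero_le_one] at ht
  have h1 : Real.exp (K * |t * Y|) ≤ Real.exp (K * |Y|) := by
    rw [abs_mul, abs_of_pos ht.1]
    gcongr
    exact mul_le_of_le_one_left (abs_nonneg _) ht.2
  have h2 : ‖FK m β (q (t * Y)) - FK m β' (r (t * Y))‖ ≤
      (L * D + |β - β'| * E) * Real.exp (K * |Y|) := by
    refine (norm_sub_le_norm_sub_add_norm_sub _ (FK m β (r (t * Y))) _).trans ?_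
    rw [b_FK_sub, add_mul, mul_assoc, mul_assoc]
    refine add_le_add ((hF _ _).trans ?_) ?_
    · gcongr
      exact (hD _).trans (by gcongr)
    · gcongr
      exact (hE _).trans (by gcongr)
  rw [← mul_sub, norm_mul, norm_mul, mul_comm I, norm_exp_ofReal_mul_I, mul_one, norm_pow, norm_real,
    Real.norm_eq_abs, abs_of_pos ht.1]
  exact (mul_le_of_le_one_left (norm_nonneg _) (pow_le_one₀ ht.1.le ht.2)).trans h2

theorem b_pica_exp {K : ℝ} (hK : 0 < K) {X : ℝ} (hX : 0 ≤ X) :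
    |∫ Y in (0 : ℝ)..X, Real.exp (K * |Y|)| ≤ Real.exp (K * |X|) / K := by
  have h1 : ∫ Y in (0 : ℝ)..X, Real.exp (K * |Y|) = ∫ Y in (0 : ℝ)..X, Real.exp (K * Y) := by
    refine intervalIntegral.integral_congr fun Y hY => ?_
    rw [uIcc_of_le hX] at hY
    simp only [abs_of_nonneg hY.1]
  have h2 : ∫ Y in (0 : ℝ)..X, Real.exp (K * Y) = Real.exp (K * X) / K - Real.exp (K * 0) / K := by
    refine intervalIntegral.integral_eq_sub_of_hasDerivAt (f := fun Y => Real.exp (K * Y) / K)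
      (fun Y _ => ?_) (Continuous.intervalIntegrable (by fun_prop) _ _)
    have := (((hasDerivAt_id Y).const_mul K).exp).div_const K
    simp only [id, mul_one] at this
    rwa [mul_div_cancel_right₀ _ hK.ne'] at this
  have h3 : 1 ≤ Real.exp (K * X) := Real.one_le_exp (by positivity)
  rw [h1, h2, mul_zero, Real.exp_zero, abs_of_nonneg hX, ← sub_div,
    abs_of_nonneg (div_nonneg (by linarith) hK.le)]
  gcongr
  linarith

theorem b_exp_int {K : ℝ} (hK : 0 < K) (X : ℝ) :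
    |∫ Y in (0 : ℝ)..X, Real.exp (K * |Y|)| ≤ Real.exp (K * |X|) / K := by
  rcases le_total 0 X with hX | hX
  · exact b_pica_exp hK hX
  · have h1 := b_pica_exp hK (neg_nonneg.2 hX)
    have h2 := intervalIntegral.integral_comp_neg (a := X) (b := 0)
      (fun Y => Real.exp (K * |Y|))
    simp only [abs_neg, neg_zero] at h1 h2
    rw [intervalIntegral.integral_symm, abs_neg, h2]
    exact h1

theorem b_T_bd {m : ℕ} {L K D E β β' : ℝ} {q r : ℝ → ℂ} (hL : 0 ≤ L) (hK : 0 < K)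
    (hF : ∀ z w : ℂ, ‖FK m β z - FK m β w‖ ≤ L * ‖z - w‖) (hq : Continuous q) (hr : Continuous r)
    (hD : ∀ Y, ‖q Y - r Y‖ ≤ D * Real.exp (K * |Y|)) (hE : ∀ Y, ‖r Y‖ ≤ E * Real.exp (K * |Y|))
    (X : ℝ) : ‖(∫ Y in (0 : ℝ)..X, KK m β q Y) - ∫ Y in (0 : ℝ)..X, KK m β' r Y‖ ≤
      (L * D + |β - β'| * E) / K * Real.exp (K * |X|) := by
  have hD0 : 0 ≤ D := by simpa using (norm_nonneg _).trans (hD 0)
  have hE0 : 0 ≤ E := by simpa using (norm_nonneg _).trans (hE 0)
  have hc : 0 ≤ L * D + |β - β'| * E := by positivity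
  rw [← intervalIntegral.integral_sub ((b_KK_cont1 m β hq).intervalIntegrable _ _)
    ((b_KK_cont1 m β' hr).intervalIntegrable _ _)]
  refine (intervalIntegral.norm_integral_le_abs_of_norm_le
    (g := fun Y => (L * D + |β - β'| * E) * Real.exp (K * |Y|))
    (Eventually.of_forall fun Y => b_KK_bd hL hK.le hF hq hr hD hE Y)
    (Continuous.intervalIntegrable (by fun_prop) _ _)).trans ?_
  rw [intervalIntegral.integral_const_mul, abs_mul, abs_of_nonneg hc]
  calc _ ≤ (L * D + |β - β'| * E) * (Real.exp (K * |X|) / K) := by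
        gcongr; exact b_exp_int hK X
    _ = _ := by ring

end Vale.Agent.P139
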