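import Vale.Agent.P139.B.Flux

/-! P139 B/Ric: derivative formulas (Riccati equation, potential, energy).
Plan: `g = q' / q` has derivative `q''/q - g²`, so
`X g' = PK - β - I a - (6 + I X) g - X g²`; take real parts (`reCLM`), `field_simp`, `ring`.
`normSq (q X)` has derivative `2 (q' conj q).re = 2 α normSq q`. Energy: `‖q'‖² = normSq q'` has
derivative `2 (q'' conj q').re`; use `b_PK_eq`. `b_En_le`:
`-2 a (q' conj q).im ≤ 2 a ‖q'‖ ‖q‖ ≤ ‖q'‖² + a² ‖q‖²`. -/

noncomputable section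

open MeasureTheory Filter Topology Set Complex
open scoped ComplexConjugate ContDiff

namespace Vale.Agent.P139

variable {m : ℕ} {β X : ℝ} {q : ℝ → ℂ}

theorem b_ric_re {f : ℝ → ℂ} {d : ℂ} (h : HasDerivAt f d X) :
    HasDerivAt (fun Y => (f Y).re) d.re X :=
  reCLM.hasFDerivAt.comp_hasDerivAt X h

theorem b_ric_im {f : ℝ → ℂ} {d : ℂ} (h : HasDerivAt f d X) :
    HasDerivAt (fun Y => (f Y).im) d.im X :=
  imCLM.hasFDerivAt.comp_hasDerivAt X h

theorem b_ric_nsq {f : ℝ → ℂ} {d : ℂ} (h : HasDerivAt f d X) :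
    HasDerivAt (fun Y => normSq (f Y)) (2 * (d * conj (f X)).re) X := by
  have h1 := ((b_ric_re h).mul (b_ric_re h)).add ((b_ric_im h).mul (b_ric_im h))
  have e : (fun Y => normSq (f Y)) =
      ((fun Y => (f Y).re) * fun Y => (f Y).re) + (fun Y => (f Y).im) * fun Y => (f Y).im := by
    funext Y; simp [normSq_apply]
  rw [e]
  refine h1.congr_deriv ?_
  simp only [mul_re, conj_re, conj_im]
  ring

theorem b_ric_al (hq : q X ≠ 0) : (deriv q X * conj (q X)).re = al q X * normSq (q X) := by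
  have e : deriv q X * conj (q X) = deriv q X / q X * (normSq (q X) : ℂ) := by
    rw [← mul_conj]; field_simp
  rw [e, al, re_mul_ofReal]

theorem b_al_cont (h : ISol m β q) : ContinuousOn (al q) (Ici 0) :=
  continuous_re.comp_continuousOn
    (h.sol.c1.continuousOn.div h.sol.d1.continuous.continuousOn fun _ hx => b_ne h hx)

theorem b_AA_cont (h : ISol m β q) : ContinuousOn (AA6 q) (Ici 0) :=
  (continuous_pow 6).continuousOn.mul (b_al_cont h)

theorem b_al_zero (h : ISol m β q) : al q 0 = (PK m (q 0) - β) / 6 := by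
  have h0 := h.ne0
  have e : deriv q 0 / q 0 = (((PK m (q 0) - β) / 6 : ℝ) : ℂ) - I * ((aa m / 6 : ℝ) : ℂ) := by
    rw [b_deriv_zero h, FK]; push_cast; field_simp
  rw [al, e, sub_re, ofReal_re, re_mul_ofReal, I_re]
  ring

theorem b_AA_deriv (h : ISol m β q) (hX : 0 < X) :
    HasDerivAt (AA6 q) (X ^ 5 * (PK m (q X) - β - hh q X - X * al q X ^ 2)) X := by
  have hq := b_ne h hX.le
  have hX' : (X : ℂ) ≠ 0 := by exact_mod_cast hX.ne'
  have h1 := (h.sol.d2 X hX).div (h.sol.d1 X).hasDerivAt hq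
  have e : ((FK m β (q X) - (6 + I * X) * deriv q X) / X * q X - deriv q X * deriv q X) / q X ^ 2
      = ((PK m (q X) : ℂ) - β - I * aa m - (6 + I * X) * (deriv q X / q X)
        - X * ((deriv q X / q X) * (deriv q X / q X))) * ((X⁻¹ : ℝ) : ℂ) := by
    rw [FK]; push_cast; field_simp
  rw [e] at h1
  have h2 := (hasDerivAt_pow 6 X).mul (b_ric_re h1)
  refine h2.congr_deriv ?_
  rw [re_mul_ofReal]
  have hX0 := hX.ne'
  simp only [hh, al, ph, Pi.div_apply, sub_re, mul_re, add_re, add_im, mul_im, ofReal_re,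
    ofReal_im, I_re, I_im, re_ofNat, im_ofNat]
  field_simp
  push_cast
  ring

theorem b_nsq_deriv (h : ISol m β q) (hX : 0 ≤ X) :
    HasDerivAt (fun Y => normSq (q Y)) (2 * al q X * normSq (q X)) X := by
  refine (b_ric_nsq (h.sol.d1 X).hasDerivAt).congr_deriv ?_
  rw [b_ric_al (b_ne h hX)]
  ring

theorem b_Pu_cont (h : ISol m β q) : Continuous (Pu m q) :=
  (continuous_normSq.comp h.sol.d1.continuous).pow m

theorem b_Pu_deriv (h : ISol m β q) (hX : 0 ≤ X) :
    HasDerivAt (Pu m q) (2 * m * al q X * Pu m q X) X := by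
  refine ((b_nsq_deriv h hX).pow m).congr_deriv ?_
  unfold Pu
  cases m with
  | zero => simp
  | succ k => simp only [Nat.add_sub_cancel]; ring

theorem b_Pu_pos (h : ISol m β q) (hX : 0 ≤ X) : 0 < Pu m q X :=
  pow_pos (normSq_pos.2 (b_ne h hX)) m

theorem b_lg_sq (h : ISol m β q) (hX : 0 ≤ X) :
    ‖deriv q X‖ ^ 2 = (al q X ^ 2 + ph q X ^ 2) * normSq (q X) ∧
      ‖deriv q X / q X‖ ^ 2 = al q X ^ 2 + ph q X ^ 2 := by
  have hq := b_ne h hX
  have h2 : ‖deriv q X / q X‖ ^ 2 = al q X ^ 2 + ph q X ^ 2 := by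
    rw [← normSq_eq_norm_sq, normSq_apply, al, ph]; ring
  refine ⟨?_, h2⟩
  have hn : ‖q X‖ ≠ 0 := norm_ne_zero_iff.2 hq
  rw [← h2, normSq_eq_norm_sq, norm_div]
  field_simp

theorem b_En_cont (h : ISol m β q) : Continuous (En m β q) := by
  have h1 := h.sol.c1
  have h2 : Continuous fun Y => normSq (q Y) := continuous_normSq.comp h.sol.d1.continuous
  unfold En
  fun_prop

theorem b_En_deriv (h : ISol m β q) (hX : 0 < X) (hP : Pu m q X ≤ 4) :
    HasDerivAt (En m β q)
      (-11 * ‖deriv q X‖ ^ 2 - 2 * aa m * (deriv q X * conj (q X)).im) X := by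
  have hX' : (X : ℂ) ≠ 0 := by exact_mod_cast hX.ne'
  have hX0 := hX.ne'
  have h1 := b_ric_nsq (h.sol.d2 X hX)
  have h2 := b_ric_nsq (h.sol.d1 X).hasDerivAt
  have h3 := (((hasDerivAt_id X).mul h1).add (h2.const_mul β)).sub
    ((h2.pow (m + 1)).div_const ((m : ℝ) + 1))
  have e : En m β q = ((id * fun Y => normSq (deriv q Y)) + fun Y => β * normSq (q Y)) -
      fun Y => ((fun Y => normSq (q Y)) ^ (m + 1)) Y / ((m : ℝ) + 1) := by
    funext Y; simp [En, normSq_eq_norm_sq]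
  rw [e]
  refine h3.congr_deriv ?_
  have e2 : (FK m β (q X) - (6 + I * X) * deriv q X) / X =
      (FK m β (q X) - (6 + I * X) * deriv q X) * ((X⁻¹ : ℝ) : ℂ) := by
    push_cast; rw [div_eq_mul_inv]
  have hm : (m : ℝ) + 1 ≠ 0 := by positivity
  rw [e2, FK, b_PK_eq hP, ← normSq_eq_norm_sq, Nat.add_sub_cancel]
  generalize normSq (q X) ^ m = P
  simp only [id, sub_re, mul_re, add_re, add_im, mul_im, sub_im, ofReal_re,
    ofReal_im, I_re, I_im, re_ofNat, im_ofNat, conj_re, conj_im, normSq_apply]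
  push_cast
  field_simp
  ring

theorem b_En_le (h : ISol m β q) (hX : 0 < X) (hP : Pu m q X ≤ 4) :
    ∃ d, HasDerivAt (En m β q) d X ∧
      d ≤ -10 * ‖deriv q X‖ ^ 2 + aa m ^ 2 * normSq (q X) := by
  refine ⟨_, b_En_deriv h hX hP, ?_⟩
  rw [← normSq_eq_norm_sq]
  simp only [mul_im, conj_re, conj_im, normSq_apply]
  nlinarith [sq_nonneg ((deriv q X).re - aa m * (q X).im),
    sq_nonneg ((deriv q X).im + aa m * (q X).re)]

end Vale.Agent.P139
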