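import Vale.Agent.P139.B.Int

/-! P139 B/Smooth: smoothness near `X = 0` and the equation without cut-off.
Plan: `b_star_smooth`: induction on `n` (for all `k`, `H`). On the open set `U = Ioi (-δ)` the
derivative of `X ↦ ∫₀¹ t^k H (t X)` is `∫₀¹ t^(k+1) H' (t X)`
(`intervalIntegral.hasDerivAt_integral_of_dominated_loc_of_deriv_le`; for `X₀ ∈ U` and a small
closed ball around it all points `t X` lie in a compact interval inside `U`); continuity for
`n = 0` in the same way (`continuousAt_of_dominated_interval`); `contDiffOn_succ_iff_deriv_of_isOpen`.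
`b_smooth`: `δ` with `Pu < 4` on `(-δ, 0]` by continuity; on `U`,
`q' X = exp (-I X) ∫₀¹ t^5 H (t X)`, `H Y = exp (I Y) ((normSq (q Y))^m - β - I a) q Y`, and
`(normSq z : ℂ) = z * conj z` is smooth; induction on `n`, `contDiffOn_infty`. -/

noncomputable section

open MeasureTheory Filter Topology Set Complex
open scoped ComplexConjugate ContDiff

namespace Vale.Agent.P139

theorem b_smooth_mem {lo hi t X : ℝ} (hl : lo ≤ 0) (hh : 0 ≤ hi) (ht : t ∈ Icc (0 : ℝ) 1)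
    (hX : X ∈ Icc lo hi) : t * X ∈ Icc lo hi := by
  constructor
  · nlinarith [mul_nonneg ht.1 (sub_nonneg.2 hX.1),
      mul_nonneg (sub_nonneg.2 ht.2) (neg_nonneg.2 hl)]
  · nlinarith [mul_nonneg ht.1 (sub_nonneg.2 hX.2), mul_nonneg (sub_nonneg.2 ht.2) hh]

theorem b_smooth_box {δ X : ℝ} (hδ : 0 < δ) (hX : X ∈ Ioi (-δ)) :
    ∃ lo hi : ℝ, -δ < lo ∧ lo ≤ 0 ∧ 0 ≤ hi ∧ Icc lo hi ∈ 𝓝 X := by
  have h : -δ < X := hX
  refine ⟨min ((X - δ) / 2) 0, max (X + 1) 0, lt_min (by linarith) (by linarith), min_le_right _ _,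
    le_max_right _ _, Icc_mem_nhds ((min_le_left _ _).trans_lt (by linarith))
      (lt_of_lt_of_le (by linarith) (le_max_left _ _))⟩

theorem b_smooth_U {δ t X : ℝ} (hδ : 0 < δ) (ht : t ∈ Icc (0 : ℝ) 1) (hX : X ∈ Ioi (-δ)) :
    t * X ∈ Ioi (-δ) := by
  obtain ⟨lo, hi, h1, h2, h3, h4⟩ := b_smooth_box hδ hX
  exact h1.trans_le (b_smooth_mem h2 h3 ht (mem_of_mem_nhds h4)).1

theorem b_smooth_cont {δ : ℝ} (hδ : 0 < δ) (k : ℕ) {H : ℝ → ℂ} (hH : ContinuousOn H (Ioi (-δ))) :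
    ContinuousOn (fun X : ℝ => ∫ t in (0 : ℝ)..1, (t : ℂ) ^ k * H (t * X)) (Ioi (-δ)) := by
  intro X hX
  obtain ⟨lo, hi, h1, h2, h3, h4⟩ := b_smooth_box hδ hX
  have hc : Continuous fun Y : ℝ => H (max Y lo) :=
    hH.comp_continuous (continuous_id.max continuous_const) fun Y => h1.trans_le (le_max_right _ _)
  have hG : Continuous fun X : ℝ => ∫ t in (0 : ℝ)..1, (t : ℂ) ^ k * H (max (t * X) lo) :=
    intervalIntegral.continuous_parametric_intervalIntegral_of_continuous'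
      (f := fun X t : ℝ => (t : ℂ) ^ k * H (max (t * X) lo))
      (((continuous_ofReal.comp continuous_snd).pow k).mul
        (hc.comp (continuous_snd.mul continuous_fst))) 0 1
  refine (hG.continuousAt.congr ?_).continuousWithinAt
  filter_upwards [h4] with Y hY
  refine intervalIntegral.integral_congr fun t ht => ?_
  rw [uIcc_of_le zero_le_one] at ht
  simp only [max_eq_left (b_smooth_mem h2 h3 ht hY).1]

theorem b_smooth_on {δ : ℝ} (hδ : 0 < δ) (k : ℕ) {H : ℝ → ℂ} (hH : ContinuousOn H (Ioi (-δ)))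
    {X : ℝ} (hX : X ∈ Ioi (-δ)) : ContinuousOn (fun t : ℝ => (t : ℂ) ^ k * H (t * X)) (Icc 0 1) :=
  (continuous_ofReal.pow k).continuousOn.mul
    (hH.comp (continuous_id.mul continuous_const).continuousOn fun _ ht => b_smooth_U hδ ht hX)

theorem b_smooth_der {δ : ℝ} (hδ : 0 < δ) (k : ℕ) {H H' : ℝ → ℂ}
    (hd : ∀ Y ∈ Ioi (-δ), HasDerivAt H (H' Y) Y) (hc : ContinuousOn H' (Ioi (-δ))) {X : ℝ}
    (hX : X ∈ Ioi (-δ)) : HasDerivAt (fun X : ℝ => ∫ t in (0 : ℝ)..1, (t : ℂ) ^ k * H (t * X))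
      (∫ t in (0 : ℝ)..1, (t : ℂ) ^ (k + 1) * H' (t * X)) X := by
  obtain ⟨lo, hi, h1, h2, h3, h4⟩ := b_smooth_box hδ hX
  have hH : ContinuousOn H (Ioi (-δ)) := fun Y hY => (hd Y hY).continuousAt.continuousWithinAt
  have hsub : Icc lo hi ⊆ Ioi (-δ) := fun Y hY => h1.trans_le hY.1
  obtain ⟨C, hC⟩ := isCompact_Icc.exists_bound_of_continuousOn (hc.mono hsub)
  have hI : uIoc (0 : ℝ) 1 ⊆ Icc 0 1 := by
    rw [uIoc_of_le zero_le_one]
    exact Ioc_subset_Icc_self
  refine (intervalIntegral.hasDerivAt_integral_of_dominated_loc_of_deriv_le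
    (F := fun X t : ℝ => (t : ℂ) ^ k * H (t * X))
    (F' := fun X t : ℝ => (t : ℂ) ^ (k + 1) * H' (t * X)) (bound := fun _ => C) h4 ?_ ?_ ?_ ?_
    intervalIntegrable_const ?_).2
  · filter_upwards [h4] with Y hY
    exact ((b_smooth_on hδ k hH (hsub hY)).mono hI).aestronglyMeasurable measurableSet_uIoc
  · exact (b_smooth_on hδ k hH hX).intervalIntegrable_of_Icc zero_le_one
  · exact ((b_smooth_on hδ (k + 1) hc hX).mono hI).aestronglyMeasurable measurableSet_uIoc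
  · refine Eventually.of_forall fun t ht Y hY => ?_
    have ht' := hI ht
    rw [norm_mul, norm_pow, Complex.norm_real, Real.norm_of_nonneg ht'.1]
    exact (mul_le_of_le_one_left (norm_nonneg _) (pow_le_one₀ ht'.1 ht'.2)).trans
      (hC _ (b_smooth_mem h2 h3 ht' hY))
  · refine Eventually.of_forall fun t ht Y hY => ?_
    have a1 : HasDerivAt (fun Y : ℝ => t * Y) t Y := by
      simpa using (hasDerivAt_id Y).const_mul t
    have a2 := ((hd _ (hsub (b_smooth_mem h2 h3 (hI ht) hY))).scomp Y a1).const_mul ((t : ℂ) ^ k)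
    refine HasDerivAt.congr_deriv a2 ?_
    rw [real_smul]
    ring

theorem b_star_smooth {δ : ℝ} (hδ : 0 < δ) (n : ℕ) : ∀ (k : ℕ) (H : ℝ → ℂ),
    ContDiffOn ℝ n H (Ioi (-δ)) →
      ContDiffOn ℝ n (fun X : ℝ => ∫ t in (0 : ℝ)..1, (t : ℂ) ^ k * H (t * X)) (Ioi (-δ)) := by
  induction n with
  | zero =>
    intro k H hH
    rw [Nat.cast_zero, contDiffOn_zero] at hH ⊢
    exact b_smooth_cont hδ k hH
  | succ n ih =>
    intro k H hH
    rw [Nat.cast_succ, contDiffOn_succ_iff_deriv_of_isOpen isOpen_Ioi] at hH ⊢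
    have hd : ∀ Y ∈ Ioi (-δ), HasDerivAt H (deriv H Y) Y := fun Y hY =>
      (hH.1.differentiableAt (isOpen_Ioi.mem_nhds hY)).hasDerivAt
    have h1 := fun X hX => b_smooth_der hδ k hd hH.2.2.continuousOn (X := X) hX
    refine ⟨fun X hX => (h1 X hX).differentiableAt.differentiableWithinAt, by simp, ?_⟩
    exact (ih (k + 1) _ hH.2.2).congr fun X hX => (h1 X hX).deriv

theorem b_smooth {m : ℕ} {β : ℝ} {q : ℝ → ℂ} (h : ISol m β q)
    (hP : ∀ X, 0 ≤ X → Pu m q X ≤ 1) : ∃ δ > 0, ContDiffOn ℝ ∞ q (Ioi (-δ)) := by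
  have hq : Continuous q := h.sol.d1.continuous
  have hc : Continuous (Pu m q) := (continuous_normSq.comp hq).pow m
  have h4 : ∀ᶠ X in 𝓝 (0 : ℝ), Pu m q X < 4 :=
    hc.continuousAt.eventually_lt continuousAt_const ((hP 0 le_rfl).trans_lt (by norm_num))
  obtain ⟨δ, hδ, hb⟩ := Metric.eventually_nhds_iff.1 h4
  have h5 : ∀ Y ∈ Ioi (-δ), normSq (q Y) ^ m ≤ 4 := by
    intro Y hY
    rcases le_total 0 Y with h0 | h0
    · exact (hP Y h0).trans (by norm_num)
    · refine (hb ?_).le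
      rw [Real.dist_eq, sub_zero, abs_of_nonpos h0]
      exact neg_lt.1 hY
  let H : ℝ → ℂ := fun Y => exp (I * Y) * (((q Y * conj (q Y)) ^ m - β - I * aa m) * q Y)
  have he : ∀ X ∈ Ioi (-δ), deriv q X =
      exp (-(I * X)) * ∫ t in (0 : ℝ)..1, (t : ℂ) ^ 5 * H (t * X) := by
    intro X hX
    rw [h.int, KK, ← intervalIntegral.integral_const_mul]
    refine intervalIntegral.integral_congr fun t ht => ?_
    rw [uIcc_of_le zero_le_one] at ht
    have a1 : exp (I * ((t - 1) * X : ℝ)) = exp (-(I * X)) * exp (I * (t * X : ℝ)) := by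
      rw [← Complex.exp_add]
      congr 1
      push_cast
      ring
    simp only [H, FK, b_PK_eq (h5 _ (b_smooth_U hδ ht hX)), a1, mul_conj, ofReal_pow]
    ring
  have hr : ∀ n : ℕ, ContDiff ℝ n fun X : ℝ => I * (X : ℂ) := fun n =>
    contDiff_const.mul ofRealCLM.contDiff
  refine ⟨δ, hδ, contDiffOn_infty.2 fun n => ?_⟩
  induction n with
  | zero =>
    rw [Nat.cast_zero, contDiffOn_zero]
    exact hq.continuousOn
  | succ n ih =>
    rw [Nat.cast_succ, contDiffOn_succ_iff_deriv_of_isOpen isOpen_Ioi]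
    refine ⟨h.sol.d1.differentiableOn, by simp, ?_⟩
    have a1 : ContDiffOn ℝ n (fun Y => conj (q Y)) (Ioi (-δ)) :=
      conjCLE.contDiff.comp_contDiffOn ih
    have a2 : ContDiffOn ℝ n H (Ioi (-δ)) :=
      (hr n).cexp.contDiffOn.mul
        (((((ih.mul a1).pow m).sub contDiffOn_const).sub contDiffOn_const).mul ih)
    exact ((hr n).neg.cexp.contDiffOn.mul (b_star_smooth hδ n 5 H a2)).congr he

theorem b_ode {m : ℕ} {β : ℝ} {q : ℝ → ℂ} (h : ISol m β q) (hP : ∀ X, 0 ≤ X → Pu m q X ≤ 1)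
    (X : ℝ) (hX : 0 ≤ X) :
    X * deriv (deriv q) X + (6 + I * X) * deriv q X + (β + I * aa m) * q X =
      (normSq (q X) : ℂ) ^ m * q X := by
  have a1 : FK m β (q X) = ((normSq (q X) : ℂ) ^ m - β - I * aa m) * q X := by
    rw [FK, b_PK_eq ((hP X hX).trans (by norm_num)), ofReal_pow]
  rcases hX.eq_or_lt with rfl | h0
  · rw [b_deriv_zero h, a1]
    push_cast
    ring
  · have a2 : (X : ℂ) ≠ 0 := ofReal_ne_zero.2 h0.ne'
    rw [(h.sol.d2 X h0).deriv, a1]
    field_simp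
    ring

end Vale.Agent.P139
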